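import Mathlib

/-!
# The analytic patch through an algebraically generic point

`ift_scalar`: the scalar analytic implicit function theorem.
`patch`: algebraic functions `g` of algebraically independent analytic functions `f`
(over a ring `R` of analytic functions) are analytic functions `φ(u, f u)`, and every
polynomial relation between `f` and `g` over `R` holds identically for `(x, φ(u,x))`.
-/

namespace Vale.Agent.P097.H650

open Filter Topology Polynomial

/-- Scalar analytic implicit function theorem. -/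
theorem ift_scalar {E : Type*} [NormedAddCommGroup E] [NormedSpace ℂ E] [CompleteSpace E]
    {F : E × ℂ → ℂ} {x0 : E} {y0 : ℂ} (hF : AnalyticAt ℂ F (x0, y0)) (h0 : F (x0, y0) = 0)
    (hd : deriv (fun y => F (x0, y)) y0 ≠ 0) :
    ∃ φ : E → ℂ, AnalyticAt ℂ φ x0 ∧ φ x0 = y0 ∧ (∀ᶠ x in 𝓝 x0, F (x, φ x) = 0) ∧
      (∀ᶠ v in 𝓝 (x0, y0), F v = 0 → φ v.1 = v.2) := by
  have cdf : ContDiffAt ℂ (⊤ : WithTop ℕ∞) F (x0, y0) := hF.contDiffAt
  have pn : (⊤ : WithTop ℕ∞) ≠ 0 := by simp
  have hFd : HasFDerivAt F (fderiv ℂ F (x0, y0)) (x0, y0) := hF.differentiableAt.hasFDerivAt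
  have hinr : HasFDerivAt (fun y : ℂ => (x0, y)) (ContinuousLinearMap.inr ℂ E ℂ) y0 := by
    simpa using (hasFDerivAt_prodMk_right x0 y0)
  have hcomp : HasFDerivAt (fun y => F (x0, y)) (fderiv ℂ F (x0, y0) ∘L
      ContinuousLinearMap.inr ℂ E ℂ) y0 := HasFDerivAt.comp y0 (f := fun y : ℂ => (x0, y)) hFd hinr
  have hder : (fderiv ℂ F (x0, y0) ∘L ContinuousLinearMap.inr ℂ E ℂ) 1
      = deriv (fun y => F (x0, y)) y0 := by
    rw [hcomp.hasDerivAt.deriv]
  set c := deriv (fun y => F (x0, y)) y0 with hc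
  have if₂ : (fderiv ℂ F (x0, y0) ∘L .inr ℂ E ℂ).IsInvertible := by
    refine ⟨ContinuousLinearEquiv.unitsEquivAut ℂ (Units.mk0 c hd), ?_⟩
    ext
    simp only [ContinuousLinearEquiv.coe_coe, ContinuousLinearEquiv.unitsEquivAut_apply,
      Units.val_mk0, one_mul]
    exact hder.symm
  refine ⟨cdf.implicitFunction pn if₂, ?_, ?_, ?_, ?_⟩
  · have := cdf.contDiffAt_implicitFunction pn if₂
    exact this.analyticAt
  · exact cdf.implicitFunction_apply_self pn if₂
  · have := cdf.eventually_apply_implicitFunction pn if₂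
    filter_upwards [this] with x hx
    rw [hx, h0]
  · have := cdf.eventually_apply_eq_iff_implicitFunction pn if₂
    filter_upwards [this] with v hv h
    exact hv.1 (h.trans h0.symm)

/-- Analytic functions on a preconnected open set form a domain. -/
theorem mul_eq_zero_on {E : Type*} [NormedAddCommGroup E] [NormedSpace ℂ E]
    {F G : E → ℂ} {U : Set E} (hU : IsPreconnected U) (hUo : IsOpen U)
    (hF : AnalyticOnNhd ℂ F U) (hG : AnalyticOnNhd ℂ G U) (h : ∀ x ∈ U, F x * G x = 0) :
    (∀ x ∈ U, F x = 0) ∨ (∀ x ∈ U, G x = 0) := by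
  by_cases hF0 : ∀ x ∈ U, F x = 0
  · exact Or.inl hF0
  · right
    push Not at hF0
    obtain ⟨x1, hx1, hne⟩ := hF0
    have hev : ∀ᶠ x in 𝓝 x1, F x ≠ 0 := (hF x1 hx1).continuousAt.eventually_ne hne
    have hev2 : ∀ᶠ x in 𝓝 x1, x ∈ U := hUo.mem_nhds hx1
    have hz : G =ᶠ[𝓝 x1] 0 := by
      filter_upwards [hev, hev2] with x h1 h2
      exact (mul_eq_zero.1 (h x h2)).resolve_left h1
    exact fun x hx => hG.eqOn_zero_of_preconnected_of_eventuallyEq_zero hU hx1 hz hx

section

set_option linter.unusedSectionVars false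

variable {E : Type*} [NormedAddCommGroup E] [NormedSpace ℂ E]
  {σ τ : Type*} {R : Type*} [CommRing R]

/-- Evaluation of the coefficient ring at a point. -/
def evR (ev : R →+* (E → ℂ)) (u : E) : R →+* ℂ := (Pi.evalRingHom (fun _ => ℂ) u).comp ev

@[simp] theorem evR_apply (ev : R →+* (E → ℂ)) (u : E) (a : R) : evR ev u a = ev a u := rfl

/-- Evaluation of polynomials over the coefficient ring. -/
noncomputable def evM (ev : R →+* (E → ℂ)) (u : E) (x : σ → ℂ) : MvPolynomial σ R →+* ℂ :=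
  MvPolynomial.eval₂Hom (evR ev u) x

@[simp] theorem evM_C (ev : R →+* (E → ℂ)) (u : E) (x : σ → ℂ) (a : R) :
    evM ev u x (MvPolynomial.C a) = ev a u := by simp [evM]

@[simp] theorem evM_X (ev : R →+* (E → ℂ)) (u : E) (x : σ → ℂ) (i : σ) :
    evM ev u x (MvPolynomial.X i) = x i := by simp [evM]

variable {ev : R →+* (E → ℂ)}

theorem analyticAt_evM [Fintype σ] {V : Type*} [NormedAddCommGroup V] [NormedSpace ℂ V]
    {a : V → E} {b : V → σ → ℂ} {v : V} (hev : ∀ c, AnalyticAt ℂ (ev c) (a v))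
    (ha : AnalyticAt ℂ a v) (hb : AnalyticAt ℂ b v) (Q : MvPolynomial σ R) :
    AnalyticAt ℂ (fun w => evM ev (a w) (b w) Q) v := by
  induction Q using MvPolynomial.induction_on with
  | C c => simpa using (hev c).fun_comp ha
  | add p q hp hq => simpa using hp.fun_add hq
  | mul_X p i hp =>
    have hbi : AnalyticAt ℂ (fun w => b w i) v :=
      ((ContinuousLinearMap.proj (R := ℂ) (φ := fun _ : σ => ℂ) i).analyticAt _).fun_comp hb
    simpa using hp.fun_mul hbi

theorem analyticAt_evP [Fintype σ] {V : Type*} [NormedAddCommGroup V] [NormedSpace ℂ V]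
    {a : V → E} {b : V → σ → ℂ} {y : V → ℂ} {v : V} (hev : ∀ c, AnalyticAt ℂ (ev c) (a v))
    (ha : AnalyticAt ℂ a v) (hb : AnalyticAt ℂ b v) (hy : AnalyticAt ℂ y v)
    (Q : Polynomial (MvPolynomial σ R)) :
    AnalyticAt ℂ (fun w => Q.eval₂ (evM ev (a w) (b w)) (y w)) v := by
  induction Q using Polynomial.induction_on' with
  | add p q hp hq => simpa [Polynomial.eval₂_add] using hp.fun_add hq
  | monomial n c =>
    simpa [Polynomial.eval₂_monomial] using (analyticAt_evM hev ha hb c).fun_mul (hy.fun_pow n)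

theorem deriv_evP (ψ : MvPolynomial σ R →+* ℂ) (Q : Polynomial (MvPolynomial σ R)) (y : ℂ) :
    deriv (fun z => Q.eval₂ ψ z) y = (derivative Q).eval₂ ψ y := by
  have h1 : (fun z => Q.eval₂ ψ z) = fun z => (Q.map ψ).eval z := by
    ext z; rw [Polynomial.eval_map]
  rw [h1, Polynomial.deriv, Polynomial.derivative_map, Polynomial.eval_map]

/-- **Patch theorem.** -/
theorem patch [CompleteSpace E] [Fintype σ] [Fintype τ] [IsDomain R] {u0 : E} {r0 : ℝ}
    (hr0 : 0 < r0)
    (hev : ∀ c, AnalyticOnNhd ℂ (ev c) (Metric.ball u0 r0))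
    {f : E → σ → ℂ} {g : E → τ → ℂ} (hf : AnalyticAt ℂ f u0) (hg : AnalyticAt ℂ g u0)
    (hind : ∀ Q : MvPolynomial σ R, (∀ᶠ u in 𝓝 u0, evM ev u (f u) Q = 0) → Q = 0)
    (P : τ → Polynomial (MvPolynomial σ R))
    (hP : ∀ m, ∀ᶠ u in 𝓝 u0, (P m).eval₂ (evM ev u (f u)) (g u m) = 0)
    (hP' : ∀ m, (derivative (P m)).eval₂ (evM ev u0 (f u0)) (g u0 m) ≠ 0) :
    ∃ (φ : E × (σ → ℂ) → τ → ℂ) (r : ℝ), 0 < r ∧ r ≤ r0 ∧
      AnalyticOnNhd ℂ φ (Metric.ball (u0, f u0) r) ∧ φ (u0, f u0) = g u0 ∧
      (∀ᶠ u in 𝓝 u0, φ (u, f u) = g u) ∧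
      (∀ p ∈ Metric.ball (u0, f u0) r, ∀ m, (P m).eval₂ (evM ev p.1 p.2) (φ p m) = 0) ∧
      (∀ᶠ v in 𝓝 ((u0, f u0), g u0), (∀ m, (P m).eval₂ (evM ev v.1.1 v.1.2) (v.2 m) = 0) →
        φ v.1 = v.2) ∧
      ∀ Q : MvPolynomial (σ ⊕ τ) R,
        (∀ᶠ u in 𝓝 u0, evM ev u (Sum.elim (f u) (g u)) Q = 0) →
        ∀ p ∈ Metric.ball (u0, f u0) r, evM ev p.1 (Sum.elim p.2 (φ p)) Q = 0 := by
  classical
  have hev0 : ∀ c, AnalyticAt ℂ (ev c) u0 := fun c => hev c u0 (Metric.mem_ball_self hr0)
  -- the implicit functions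
  have key : ∀ m, ∃ φ : E × (σ → ℂ) → ℂ, AnalyticAt ℂ φ (u0, f u0) ∧
      φ (u0, f u0) = g u0 m ∧
      (∀ᶠ p in 𝓝 (u0, f u0), (P m).eval₂ (evM ev p.1 p.2) (φ p) = 0) ∧
      (∀ᶠ v in 𝓝 ((u0, f u0), g u0 m), (P m).eval₂ (evM ev v.1.1 v.1.2) v.2 = 0 →
        φ v.1 = v.2) := by
    intro m
    apply ift_scalar (F := fun v : (E × (σ → ℂ)) × ℂ => (P m).eval₂ (evM ev v.1.1 v.1.2) v.2)
    · apply analyticAt_evP (a := fun v : (E × (σ → ℂ)) × ℂ => v.1.1)
        (b := fun v : (E × (σ → ℂ)) × ℂ => v.1.2) (y := fun v : (E × (σ → ℂ)) × ℂ => v.2)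
      · exact hev0
      · exact analyticAt_fst.fun_comp analyticAt_fst
      · exact analyticAt_snd.fun_comp analyticAt_fst
      · exact analyticAt_snd
    · exact (hP m).self_of_nhds
    · have h1 := deriv_evP (evM ev u0 (f u0)) (P m) (g u0 m)
      exact fun h => hP' m (h1.symm.trans h)
  choose φ hφa hφ0 hφP hφu using key
  -- a common ball
  have hφan : AnalyticAt ℂ (fun p m => φ m p) (u0, f u0) :=
    AnalyticAt.pi fun m => hφa m
  have hev1 : ∀ᶠ p in 𝓝 (u0, f u0), AnalyticAt ℂ (fun p m => φ m p) p :=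
    hφan.eventually_analyticAt
  have hev2 : ∀ᶠ p in 𝓝 (u0, f u0), ∀ m, (P m).eval₂ (evM ev p.1 p.2) (φ m p) = 0 :=
    eventually_all.2 hφP
  obtain ⟨r1, hr1, hball⟩ := Metric.eventually_nhds_iff_ball.1 (hev1.and hev2)
  have hφf : ∀ᶠ u in 𝓝 u0, (fun m => φ m (u, f u)) = g u := by
    have : ∀ m, ∀ᶠ u in 𝓝 u0, φ m (u, f u) = g u m := by
      intro m
      have hcont : ContinuousAt (fun u => ((u, f u), g u m)) u0 := by
        have h2 : ContinuousAt (fun u => g u m) u0 :=
          (continuous_apply m).continuousAt.comp hg.continuousAt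
        exact (continuousAt_id.prodMk hf.continuousAt).prodMk h2
      have h1 := hcont.tendsto.eventually (hφu m)
      filter_upwards [h1, hP m] with u h2 h3
      exact h2 h3
    filter_upwards [eventually_all.2 this] with u hu
    exact funext hu
  refine ⟨fun p m => φ m p, min r1 r0, lt_min hr1 hr0, min_le_right _ _, ?_, ?_, hφf, ?_, ?_, ?_⟩
  · intro p hp
    exact (hball p (Metric.ball_subset_ball (min_le_left _ _) hp)).1
  · exact funext hφ0
  · intro p hp m
    exact (hball p (Metric.ball_subset_ball (min_le_left _ _) hp)).2 m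
  · have h1 : ∀ m, ∀ᶠ v in 𝓝 (((u0, f u0), g u0) : (E × (σ → ℂ)) × (τ → ℂ)),
        (P m).eval₂ (evM ev v.1.1 v.1.2) (v.2 m) = 0 → φ m v.1 = v.2 m := by
      intro m
      have hcont : ContinuousAt (fun v : (E × (σ → ℂ)) × (τ → ℂ) => (v.1, v.2 m))
          ((u0, f u0), g u0) :=
        continuousAt_fst.prodMk ((continuous_apply m).continuousAt.comp continuousAt_snd)
      exact hcont.tendsto.eventually (hφu m)
    filter_upwards [eventually_all.2 h1] with v hv h2
    exact funext fun m => hv m (h2 m)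
  · intro Q hQ
    set B := Metric.ball (u0, f u0) (min r1 r0) with hB
    have hBo : IsOpen B := Metric.isOpen_ball
    have hBp : IsPreconnected B := (convex_ball _ _).isPreconnected
    have hBc : (u0, f u0) ∈ B := Metric.mem_ball_self (lt_min hr1 hr0)
    have hB1 : ∀ p ∈ B, p.1 ∈ Metric.ball u0 r0 := by
      intro p hp
      have h1 : dist p (u0, f u0) < r0 := lt_of_lt_of_le hp (min_le_right _ _)
      exact lt_of_le_of_lt (le_max_left _ _) h1
    -- the function ring
    let ρ : MvPolynomial σ R →+* (B → ℂ) :=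
      RingHom.pi fun p : B => evM ev p.1.1 p.1.2
    let _ : Algebra (MvPolynomial σ R) (B → ℂ) := ρ.toAlgebra
    have hρ : ∀ (a : MvPolynomial σ R) (p : B), algebraMap (MvPolynomial σ R) (B → ℂ) a p
        = evM ev p.1.1 p.1.2 a := fun a p => rfl
    have haev : ∀ (A : Polynomial (MvPolynomial σ R)) (G : B → ℂ) (p : B),
        (aeval G A) p = A.eval₂ (evM ev p.1.1 p.1.2) (G p) := by
      intro A G p
      have h1 : (Pi.evalRingHom (fun _ : B => ℂ) p) (A.eval₂ (algebraMap _ (B → ℂ)) G)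
          = A.eval₂ ((Pi.evalRingHom (fun _ : B => ℂ) p).comp (algebraMap _ (B → ℂ)))
            ((Pi.evalRingHom (fun _ : B => ℂ) p) G) := Polynomial.hom_eval₂ _ _ _ _
      rw [Polynomial.aeval_def]
      exact h1
    -- P m ≠ 0
    have hPne : ∀ m, P m ≠ 0 := by
      intro m h
      apply hP' m
      rw [h]; simp
    have halgφ : ∀ m, IsAlgebraic (MvPolynomial σ R) (fun p : B => φ m p.1) := by
      intro m
      refine ⟨P m, hPne m, ?_⟩
      funext p
      rw [haev]
      exact (hball p.1 (Metric.ball_subset_ball (min_le_left _ _) p.2)).2 m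
    -- every polynomial expression is algebraic
    have halgQ : ∀ Q : MvPolynomial (σ ⊕ τ) R, IsAlgebraic (MvPolynomial σ R)
        (fun p : B => evM ev p.1.1 (Sum.elim p.1.2 (fun m => φ m p.1)) Q) := by
      intro Q
      induction Q using MvPolynomial.induction_on with
      | C c =>
        have : (fun p : B => evM ev p.1.1 (Sum.elim p.1.2 (fun m => φ m p.1))
            (MvPolynomial.C c)) = algebraMap (MvPolynomial σ R) (B → ℂ) (MvPolynomial.C c) := by
          funext p
          rw [hρ]; simp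
        rw [this]
        exact isAlgebraic_algebraMap _
      | add p q hp hq =>
        have h1 : (fun p_1 : B => evM ev p_1.1.1 (Sum.elim p_1.1.2 (fun m => φ m p_1.1)) (p + q))
            = (fun p_1 : B => evM ev p_1.1.1 (Sum.elim p_1.1.2 (fun m => φ m p_1.1)) p)
              + (fun p_1 : B => evM ev p_1.1.1 (Sum.elim p_1.1.2 (fun m => φ m p_1.1)) q) := by
          funext p
          simp
        rw [h1]
        exact hp.add hq
      | mul_X p i hp =>
        have hX : IsAlgebraic (MvPolynomial σ R) (fun p : B =>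
            (Sum.elim p.1.2 (fun m => φ m p.1) : σ ⊕ τ → ℂ) i) := by
          cases i with
          | inl i =>
            have : (fun p : B => (Sum.elim p.1.2 (fun m => φ m p.1) : σ ⊕ τ → ℂ) (Sum.inl i))
                = algebraMap (MvPolynomial σ R) (B → ℂ) (MvPolynomial.X i) := by
              funext p
              rw [hρ]; simp
            rw [this]
            exact isAlgebraic_algebraMap _
          | inr m => exact halgφ m
        have h1 : (fun p_1 : B => evM ev p_1.1.1 (Sum.elim p_1.1.2 (fun m => φ m p_1.1))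
              (p * MvPolynomial.X i))
            = (fun p_1 : B => evM ev p_1.1.1 (Sum.elim p_1.1.2 (fun m => φ m p_1.1)) p)
              * (fun p : B => (Sum.elim p.1.2 (fun m => φ m p.1) : σ ⊕ τ → ℂ) i) := by
          funext p
          simp
        rw [h1]
        exact hp.mul hX
    set G : E × (σ → ℂ) → ℂ := fun p => evM ev p.1 (Sum.elim p.2 (fun m => φ m p)) Q with hG
    have hGan : AnalyticOnNhd ℂ G B := by
      intro p hp
      have hφp : AnalyticAt ℂ (fun p m => φ m p) p :=
        (hball p (Metric.ball_subset_ball (min_le_left _ _) hp)).1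
      apply analyticAt_evM (a := fun p : E × (σ → ℂ) => p.1)
        (b := fun p : E × (σ → ℂ) => (Sum.elim p.2 (fun m => φ m p) : σ ⊕ τ → ℂ))
      · exact fun c => hev c _ (hB1 p hp)
      · exact analyticAt_fst
      · apply AnalyticAt.pi
        rintro (i | m)
        · exact ((ContinuousLinearMap.proj (R := ℂ) (φ := fun _ : σ => ℂ) i).analyticAt _).fun_comp
            analyticAt_snd
        · exact ((ContinuousLinearMap.proj (R := ℂ) (φ := fun _ : τ => ℂ) m).analyticAt _).fun_comp
            hφp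
    -- the annihilating polynomial
    obtain ⟨A, hA0, hAG⟩ := halgQ Q
    obtain ⟨A', hA', hA'0⟩ := Polynomial.exists_eq_pow_rootMultiplicity_mul_and_not_dvd A hA0 0
    set k := rootMultiplicity 0 A with hk
    have hA'c : A'.coeff 0 ≠ 0 := by
      intro h
      apply hA'0
      rw [Polynomial.C_0, sub_zero]
      exact Polynomial.X_dvd_iff.2 h
    have hprod : ∀ p ∈ B, (G p) ^ k * A'.eval₂ (evM ev p.1 p.2) (G p) = 0 := by
      intro p hp
      have h1 : (aeval (fun p : B => G p.1) A) ⟨p, hp⟩ = 0 := by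
        have := congrFun hAG ⟨p, hp⟩
        exact this
      rw [haev] at h1
      rw [hA'] at h1
      simpa [Polynomial.eval₂_mul, Polynomial.eval₂_pow] using h1
    have hA'an : AnalyticOnNhd ℂ (fun p : E × (σ → ℂ) => A'.eval₂ (evM ev p.1 p.2) (G p)) B := by
      intro p hp
      exact analyticAt_evP (a := fun p : E × (σ → ℂ) => p.1) (b := fun p : E × (σ → ℂ) => p.2)
        (y := G) (fun c => hev c _ (hB1 p hp)) analyticAt_fst analyticAt_snd (hGan p hp) A'
    have hGk : AnalyticOnNhd ℂ (fun p => (G p) ^ k) B := fun p hp => (hGan p hp).pow k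
    rcases mul_eq_zero_on hBp hBo hGk hA'an hprod with h | h
    · intro p hp
      exact (eq_zero_of_pow_eq_zero (h p hp))
    · exfalso
      apply hA'c
      apply hind
      have hcont : ContinuousAt (fun u => (u, f u)) u0 := continuousAt_id.prodMk hf.continuousAt
      have hmem : ∀ᶠ u in 𝓝 u0, (u, f u) ∈ B := hcont.tendsto.eventually (hBo.mem_nhds hBc)
      filter_upwards [hmem, hQ, hφf] with u h1 h2 h3
      have h4 : G (u, f u) = 0 := by
        simp only [hG]
        rw [h3]; exact h2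
      have h5 := h _ h1
      simp only [h4] at h5
      have h6 : A'.eval₂ (evM ev u (f u)) 0 = evM ev u (f u) (A'.coeff 0) :=
        Polynomial.eval₂_at_zero _
      rw [← h6]; exact h5

end

end Vale.Agent.P097.H650
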