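import Vale.Agent.P097.H650.Patch

/-!
# Words of reflections in analytic families of mirrors

Lines `(al, p)`: normal angle and support number. A mirror is a support function `H`.
-/

namespace Vale.Agent.P097.H650

open Filter Topology

/-- The line `(al, p)` is reflected to the line `(al', p')` by the mirror with support
function `H`. -/
def Refl (H : ℂ → ℂ) (al p al' p' : ℂ) : Prop :=
  p = H ((al + al') / 2) * Complex.cos ((al' - al) / 2)
      - deriv H ((al + al') / 2) * Complex.sin ((al' - al) / 2) ∧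
  p' = H ((al + al') / 2) * Complex.cos ((al' - al) / 2)
      + deriv H ((al + al') / 2) * Complex.sin ((al' - al) / 2)

section

variable {X : Type*} [NormedAddCommGroup X] [NormedSpace ℂ X]

/-- Derivative in the first variable. -/
noncomputable def D1 (H : ℂ × X → ℂ) (q : ℂ × X) : ℂ := deriv (fun z => H (z, q.2)) q.1

theorem D1_eq_fderiv {H : ℂ × X → ℂ} {q : ℂ × X} (hH : DifferentiableAt ℂ H q) :
    D1 H q = fderiv ℂ H q ((1 : ℂ), (0 : X)) := by
  have h1 : HasDerivAt (fun z : ℂ => (z, q.2)) ((1 : ℂ), (0 : X)) q.1 :=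
    (hasDerivAt_id q.1).prodMk (hasDerivAt_const q.1 q.2)
  have hH' : HasFDerivAt H (fderiv ℂ H q) ((fun z : ℂ => (z, q.2)) q.1) := hH.hasFDerivAt
  exact (hH'.comp_hasDerivAt q.1 h1).deriv

theorem analyticAt_D1 {H : ℂ × X → ℂ} {q : ℂ × X} (hH : AnalyticAt ℂ H q) :
    AnalyticAt ℂ (D1 H) q := by
  have h1 : AnalyticAt ℂ (fun q => fderiv ℂ H q ((1 : ℂ), (0 : X))) q :=
    ((ContinuousLinearMap.apply ℂ ℂ ((1 : ℂ), (0 : X))).analyticAt _).fun_comp hH.fderiv
  refine h1.congr ?_
  filter_upwards [hH.eventually_analyticAt] with q' hq'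
  exact (D1_eq_fderiv hq'.differentiableAt).symm

theorem hasDerivAt_D1 {H : ℂ × X → ℂ} {z : ℂ} {x : X} (hH : AnalyticAt ℂ H (z, x)) :
    HasDerivAt (fun z => H (z, x)) (D1 H (z, x)) z := by
  have h1 : AnalyticAt ℂ (fun z : ℂ => H (z, x)) z :=
    hH.fun_comp (f := fun z : ℂ => (z, x)) (AnalyticAt.prod analyticAt_id analyticAt_const)
  exact h1.differentiableAt.hasDerivAt

/-- **One letter.** -/
theorem letter [CompleteSpace X] {H : ℂ × X → ℂ} {al p al' p' : ℂ} {x0 : X}
    (hH : AnalyticAt ℂ H ((al + al') / 2, x0))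
    (hR : Refl (fun z => H (z, x0)) al p al' p')
    (hρ : H ((al + al') / 2, x0) + D1 (D1 H) ((al + al') / 2, x0) ≠ 0)
    (hs : Complex.sin ((al' - al) / 2) ≠ 0) :
    ∃ Φ : (ℂ × ℂ) × X → ℂ × ℂ, AnalyticAt ℂ Φ ((al, p), x0) ∧ Φ ((al, p), x0) = (al', p') ∧
      (∀ᶠ q in 𝓝 ((al, p), x0), Refl (fun z => H (z, q.2)) q.1.1 q.1.2 (Φ q).1 (Φ q).2) ∧
      (∀ᶠ v in 𝓝 (((al, p), x0), (al', p')), Refl (fun z => H (z, v.1.2)) v.1.1.1 v.1.1.2
        v.2.1 v.2.2 → v.2 = Φ v.1) := by
  -- the point map `((l, x), al') ↦ (ψ, x)`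
  set B : ((ℂ × ℂ) × X) × ℂ → ℂ × X := fun v => ((v.1.1.1 + v.2) / 2, v.1.2) with hB
  set Dd : ((ℂ × ℂ) × X) × ℂ → ℂ := fun v => (v.2 - v.1.1.1) / 2 with hDd
  set q0 : (ℂ × ℂ) × X := ((al, p), x0) with hq0
  have hBan : ∀ v, AnalyticAt ℂ B v := by
    intro v
    have h1 : AnalyticAt ℂ (fun v : ((ℂ × ℂ) × X) × ℂ => v.1.1.1) v :=
      (analyticAt_fst.fun_comp analyticAt_fst).fun_comp analyticAt_fst
    have h2 : AnalyticAt ℂ (fun v : ((ℂ × ℂ) × X) × ℂ => v.2) v := analyticAt_snd
    have h3 : AnalyticAt ℂ (fun v : ((ℂ × ℂ) × X) × ℂ => v.1.2) v :=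
      analyticAt_snd.fun_comp analyticAt_fst
    exact AnalyticAt.prod ((h1.fun_add h2).fun_div analyticAt_const two_ne_zero) h3
  have hDan : ∀ v, AnalyticAt ℂ Dd v := by
    intro v
    have h1 : AnalyticAt ℂ (fun v : ((ℂ × ℂ) × X) × ℂ => v.1.1.1) v :=
      (analyticAt_fst.fun_comp analyticAt_fst).fun_comp analyticAt_fst
    have h2 : AnalyticAt ℂ (fun v : ((ℂ × ℂ) × X) × ℂ => v.2) v := analyticAt_snd
    exact (h2.fun_sub h1).fun_div analyticAt_const two_ne_zero
  have hB0 : B (q0, al') = ((al + al') / 2, x0) := rfl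
  have hHB : AnalyticAt ℂ (fun v => H (B v)) (q0, al') :=
    AnalyticAt.fun_comp (g := H) (f := B) (by rw [hB0]; exact hH) (hBan _)
  have hD1B : AnalyticAt ℂ (fun v => D1 H (B v)) (q0, al') :=
    AnalyticAt.fun_comp (g := D1 H) (f := B) (by rw [hB0]; exact analyticAt_D1 hH) (hBan _)
  have hcos : AnalyticAt ℂ (fun v => Complex.cos (Dd v)) (q0, al') :=
    AnalyticAt.fun_comp (Complex.differentiable_cos.analyticAt _) (hDan _)
  have hsin : AnalyticAt ℂ (fun v => Complex.sin (Dd v)) (q0, al') :=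
    AnalyticAt.fun_comp (Complex.differentiable_sin.analyticAt _) (hDan _)
  set F : ((ℂ × ℂ) × X) × ℂ → ℂ := fun v =>
    H (B v) * Complex.cos (Dd v) - D1 H (B v) * Complex.sin (Dd v) - v.1.1.2 with hF
  have hFan : AnalyticAt ℂ F (q0, al') := by
    have h1 : AnalyticAt ℂ (fun v : ((ℂ × ℂ) × X) × ℂ => v.1.1.2) (q0, al') :=
      (analyticAt_snd.fun_comp analyticAt_fst).fun_comp analyticAt_fst
    exact ((hHB.fun_mul hcos).fun_sub (hD1B.fun_mul hsin)).fun_sub h1
  have hD1e : ∀ z x, D1 H (z, x) = deriv (fun z => H (z, x)) z := fun z x => rfl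
  have hF0 : F (q0, al') = 0 := by
    have := hR.1
    simp only [hF, hB, hDd, hq0, hD1e]
    rw [sub_eq_zero]
    exact this.symm
  have hFd : deriv (fun y => F (q0, y)) al' ≠ 0 := by
    have hψ : HasDerivAt (fun y : ℂ => (al + y) / 2) (1 / 2) al' := by
      have := ((hasDerivAt_id al').const_add al).div_const 2
      simpa using this
    have hd : HasDerivAt (fun y : ℂ => (y - al) / 2) (1 / 2) al' := by
      have := ((hasDerivAt_id al').sub_const al).div_const 2
      simpa using this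
    have hHψ : HasDerivAt (fun y : ℂ => H ((al + y) / 2, x0))
        (D1 H ((al + al') / 2, x0) * (1 / 2)) al' :=
      HasDerivAt.comp (h₂ := fun z => H (z, x0)) al' (hasDerivAt_D1 hH) hψ
    have hDψ : HasDerivAt (fun y : ℂ => D1 H ((al + y) / 2, x0))
        (D1 (D1 H) ((al + al') / 2, x0) * (1 / 2)) al' :=
      HasDerivAt.comp (h₂ := fun z => D1 H (z, x0)) al' (hasDerivAt_D1 (analyticAt_D1 hH)) hψ
    have hc : HasDerivAt (fun y : ℂ => Complex.cos ((y - al) / 2))
        (-Complex.sin ((al' - al) / 2) * (1 / 2)) al' := hd.ccos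
    have hs' : HasDerivAt (fun y : ℂ => Complex.sin ((y - al) / 2))
        (Complex.cos ((al' - al) / 2) * (1 / 2)) al' := hd.csin
    have htot := ((hHψ.mul hc).sub (hDψ.mul hs')).sub_const p
    have heq : deriv (fun y => F (q0, y)) al' = -(1 / 2) * ((H ((al + al') / 2, x0)
        + D1 (D1 H) ((al + al') / 2, x0)) * Complex.sin ((al' - al) / 2)) := by
      refine Eq.trans htot.deriv ?_
      ring
    rw [heq]
    exact mul_ne_zero (by norm_num) (mul_ne_zero hρ hs)
  obtain ⟨φ, hφa, hφ0, hφF, hφu⟩ := ift_scalar hFan hF0 hFd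
  -- the new support number
  set P' : ((ℂ × ℂ) × X) × ℂ → ℂ := fun v =>
    H (B v) * Complex.cos (Dd v) + D1 H (B v) * Complex.sin (Dd v) with hP'
  have hP'an : AnalyticAt ℂ P' (q0, al') := (hHB.fun_mul hcos).fun_add (hD1B.fun_mul hsin)
  have hP'0 : P' (q0, al') = p' := by
    simp only [hP', hB, hDd, hq0, hD1e]
    exact hR.2.symm
  refine ⟨fun q => (φ q, P' (q, φ q)), ?_, ?_, ?_, ?_⟩
  · have h1 : AnalyticAt ℂ (fun q => (q, φ q)) q0 := AnalyticAt.prod analyticAt_id hφa
    have h2 : AnalyticAt ℂ (fun q => P' (q, φ q)) q0 :=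
      AnalyticAt.fun_comp (g := P') (f := fun q => (q, φ q)) (by rw [hφ0]; exact hP'an) h1
    exact AnalyticAt.prod hφa h2
  · show (φ q0, P' (q0, φ q0)) = _
    rw [hφ0, hP'0]
  · filter_upwards [hφF] with q hq
    refine ⟨?_, rfl⟩
    have h1 : F (q, φ q) = 0 := hq
    simp only [hF, hB, hDd, hD1e] at h1
    exact (sub_eq_zero.1 h1).symm
  · have hcont : ContinuousAt (fun v : ((ℂ × ℂ) × X) × (ℂ × ℂ) => (v.1, v.2.1))
        (q0, (al', p')) := by fun_prop
    filter_upwards [hcont.tendsto.eventually hφu] with v hv hRv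
    have h1 : F (v.1, v.2.1) = 0 := by
      simp only [hF, hB, hDd, hD1e]
      rw [sub_eq_zero]
      exact hRv.1.symm
    have h2 : φ v.1 = v.2.1 := hv h1
    refine Prod.ext h2.symm ?_
    show v.2.2 = P' (v.1, φ v.1)
    rw [h2]
    exact hRv.2

/-- **Word.** A chain of lines reflected by an analytic family of mirrors. -/
theorem word [CompleteSpace X] (n : ℕ) {H : ℕ → ℂ × X → ℂ} {al p : ℕ → ℂ} {x0 : X}
    (hH : ∀ k < n, AnalyticAt ℂ (H k) ((al k + al (k + 1)) / 2, x0))
    (hR : ∀ k < n, Refl (fun z => H k (z, x0)) (al k) (p k) (al (k + 1)) (p (k + 1)))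
    (hρ : ∀ k < n, H k ((al k + al (k + 1)) / 2, x0)
      + D1 (D1 (H k)) ((al k + al (k + 1)) / 2, x0) ≠ 0)
    (hs : ∀ k < n, Complex.sin ((al (k + 1) - al k) / 2) ≠ 0) :
    ∃ AL P : ℕ → (ℂ × ℂ) × X → ℂ,
      (∀ k ≤ n, AnalyticAt ℂ (AL k) ((al 0, p 0), x0) ∧ AnalyticAt ℂ (P k) ((al 0, p 0), x0) ∧
        AL k ((al 0, p 0), x0) = al k ∧ P k ((al 0, p 0), x0) = p k) ∧
      (∀ q, AL 0 q = q.1.1 ∧ P 0 q = q.1.2) ∧
      (∀ k < n, ∀ᶠ q in 𝓝 ((al 0, p 0), x0),
        Refl (fun z => H k (z, q.2)) (AL k q) (P k q) (AL (k + 1) q) (P (k + 1) q)) ∧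
      (∃ δ > 0, ∀ q ∈ Metric.ball ((al 0, p 0), x0) δ, ∀ a b : ℕ → ℂ,
        (∀ k ≤ n, dist (a k) (al k) < δ ∧ dist (b k) (p k) < δ) →
        a 0 = q.1.1 → b 0 = q.1.2 →
        (∀ k < n, Refl (fun z => H k (z, q.2)) (a k) (b k) (a (k + 1)) (b (k + 1))) →
        ∀ k ≤ n, a k = AL k q ∧ b k = P k q) := by
  induction n with
  | zero =>
    refine ⟨fun _ q => q.1.1, fun _ q => q.1.2, ?_, fun q => ⟨rfl, rfl⟩, ?_, 1, one_pos, ?_⟩
    · intro k hk
      obtain rfl : k = 0 := by omega
      exact ⟨analyticAt_fst.fun_comp analyticAt_fst, analyticAt_snd.fun_comp analyticAt_fst,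
        rfl, rfl⟩
    · intro k hk; omega
    · intro q _ a b _ h1 h2 _ k hk
      obtain rfl : k = 0 := by omega
      exact ⟨h1, h2⟩
  | succ n ih =>
    obtain ⟨AL, P, han, h0, hRf, δ, hδ, huniq⟩ := ih (fun k hk => hH k (by omega))
      (fun k hk => hR k (by omega)) (fun k hk => hρ k (by omega)) (fun k hk => hs k (by omega))
    obtain ⟨Φ, hΦa, hΦ0, hΦR, hΦu⟩ := letter (hH n (by omega)) (hR n (by omega))
      (hρ n (by omega)) (hs n (by omega))
    set q0 : (ℂ × ℂ) × X := ((al 0, p 0), x0) with hq0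
    obtain ⟨hALa, hPa, hAL0, hP0⟩ := han n le_rfl
    -- the point `((AL n q, P n q), q.2)`
    set W : (ℂ × ℂ) × X → (ℂ × ℂ) × X := fun q => ((AL n q, P n q), q.2) with hW
    have hWa : AnalyticAt ℂ W q0 :=
      AnalyticAt.prod (AnalyticAt.prod hALa hPa) analyticAt_snd
    have hW0 : W q0 = ((al n, p n), x0) := by
      show ((AL n q0, P n q0), x0) = _
      rw [hAL0, hP0]
    have hΦW : AnalyticAt ℂ (fun q => Φ (W q)) q0 :=
      AnalyticAt.fun_comp (g := Φ) (f := W) (by rw [hW0]; exact hΦa) hWa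
    have hΦW0 : Φ (W q0) = (al (n + 1), p (n + 1)) := by rw [hW0, hΦ0]
    refine ⟨fun k q => if k ≤ n then AL k q else (Φ (W q)).1,
      fun k q => if k ≤ n then P k q else (Φ (W q)).2, ?_, ?_, ?_, ?_⟩
    · intro k hk
      rcases Nat.lt_or_ge n k with hk' | hk'
      · obtain rfl : k = n + 1 := by omega
        have hne : ¬ (n + 1 ≤ n) := by omega
        simp only [hne, if_false]
        exact ⟨analyticAt_fst.fun_comp hΦW, analyticAt_snd.fun_comp hΦW, by rw [hΦW0],
          by rw [hΦW0]⟩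
      · simp only [hk', if_true]
        exact han k hk'
    · intro q
      simpa using h0 q
    · intro k hk
      rcases Nat.lt_or_ge k n with hk' | hk'
      · have h1 : k ≤ n := by omega
        have h2 : k + 1 ≤ n := by omega
        simp only [h1, h2, if_true]
        exact hRf k hk'
      · obtain rfl : k = n := by omega
        have h1 : ¬ (k + 1 ≤ k) := by omega
        simp only [le_refl, h1, if_true, if_false]
        have h2 : ∀ᶠ q in 𝓝 q0, Refl (fun z => H k (z, (W q).2)) (W q).1.1 (W q).1.2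
            (Φ (W q)).1 (Φ (W q)).2 := by
          have := hWa.continuousAt.tendsto.eventually (p := fun q => Refl (fun z => H k (z, q.2))
            q.1.1 q.1.2 (Φ q).1 (Φ q).2) (by rw [hW0]; exact hΦR)
          exact this
        exact h2
    · -- uniqueness
      have hcont : ContinuousAt (fun v : ((ℂ × ℂ) × X) × (ℂ × ℂ) => (W v.1, v.2))
          (q0, (al (n + 1), p (n + 1))) :=
        (ContinuousAt.comp (f := Prod.fst) (x := (q0, (al (n + 1), p (n + 1))))
          hWa.continuousAt continuousAt_fst).prodMk continuousAt_snd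
      have hΦu' : ∀ᶠ v in 𝓝 ((q0, (al (n + 1), p (n + 1))) : ((ℂ × ℂ) × X) × (ℂ × ℂ)),
          Refl (fun z => H n (z, (W v.1).2)) (W v.1).1.1 (W v.1).1.2 v.2.1 v.2.2 →
            v.2 = Φ (W v.1) := by
        have := hcont.tendsto.eventually (p := fun v : ((ℂ × ℂ) × X) × (ℂ × ℂ) =>
          Refl (fun z => H n (z, v.1.2)) v.1.1.1 v.1.1.2 v.2.1 v.2.2 → v.2 = Φ v.1)
          (by rw [hW0]; exact hΦu)
        exact this
      obtain ⟨δ', hδ', hball⟩ := Metric.eventually_nhds_iff_ball.1 hΦu'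
      refine ⟨min δ δ', lt_min hδ hδ', ?_⟩
      intro q hq a b hab ha0 hb0 hRab k hk
      have hqδ : q ∈ Metric.ball q0 δ := Metric.ball_subset_ball (min_le_left _ _) hq
      have hold : ∀ k ≤ n, a k = AL k q ∧ b k = P k q := by
        apply huniq q hqδ a b
        · intro k hk
          have := hab k (by omega)
          exact ⟨this.1.trans_le (min_le_left _ _), this.2.trans_le (min_le_left _ _)⟩
        · exact ha0
        · exact hb0
        · intro k hk
          exact hRab k (by omega)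
      rcases Nat.lt_or_ge n k with hk' | hk'
      · obtain rfl : k = n + 1 := by omega
        have hne : ¬ (n + 1 ≤ n) := by omega
        simp only [hne, if_false]
        have h1 : (a (n + 1), b (n + 1)) = Φ (W q) := by
          apply hball (q, (a (n + 1), b (n + 1)))
          · rw [Metric.mem_ball, Prod.dist_eq]
            refine max_lt (lt_of_lt_of_le hq (min_le_right _ _)) ?_
            rw [Prod.dist_eq]
            have := hab (n + 1) le_rfl
            exact max_lt (this.1.trans_le (min_le_right _ _)) (this.2.trans_le (min_le_right _ _))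
          · have h2 := hRab n (by omega)
            have h3 := hold n le_rfl
            simp only [hW]
            rw [← h3.1, ← h3.2]
            exact h2
        rw [← h1]
        exact ⟨rfl, rfl⟩
      · simp only [hk', if_true]
        exact hold k hk'

end

section

variable {E : Type*} [NormedAddCommGroup E] [NormedSpace ℂ E]

/-- **Derivatives of one letter.** -/
theorem letter_deriv {H : ℂ → ℂ} {al p al' p' : E → ℂ} {v : E}
    (hH : AnalyticAt ℂ H ((al v + al' v) / 2))
    (ha : DifferentiableAt ℂ al v) (ha' : DifferentiableAt ℂ al' v)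
    (hR : ∀ᶠ u in 𝓝 v, Refl H (al u) (p u) (al' u) (p' u)) (e : E) :
    DifferentiableAt ℂ p v ∧ DifferentiableAt ℂ p' v ∧
    (H ((al v + al' v) / 2) + deriv (deriv H) ((al v + al' v) / 2))
        * Complex.sin ((al' v - al v) / 2) * fderiv ℂ (fun u => (al u + al' u) / 2) v e
      = (H ((al v + al' v) / 2) * Complex.sin ((al' v - al v) / 2)
          + deriv H ((al v + al' v) / 2) * Complex.cos ((al' v - al v) / 2)) * fderiv ℂ al v e
        - fderiv ℂ p v e ∧
    fderiv ℂ al' v e = 2 * fderiv ℂ (fun u => (al u + al' u) / 2) v e - fderiv ℂ al v e ∧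
    fderiv ℂ p' v e
      = (deriv H ((al v + al' v) / 2) * Complex.cos ((al' v - al v) / 2)
          + deriv (deriv H) ((al v + al' v) / 2) * Complex.sin ((al' v - al v) / 2))
          * fderiv ℂ (fun u => (al u + al' u) / 2) v e
        + (deriv H ((al v + al' v) / 2) * Complex.cos ((al' v - al v) / 2)
          - H ((al v + al' v) / 2) * Complex.sin ((al' v - al v) / 2))
          * (fderiv ℂ (fun u => (al u + al' u) / 2) v e - fderiv ℂ al v e) := by
  set ψ : E → ℂ := fun u => (al u + al' u) / 2 with hψ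
  set d : E → ℂ := fun u => (al' u - al u) / 2 with hd
  have hψd : HasFDerivAt ψ ((1 / 2 : ℂ) • (fderiv ℂ al v + fderiv ℂ al' v)) v := by
    have h1 := (ha.hasFDerivAt.add ha'.hasFDerivAt).const_mul (1 / 2 : ℂ)
    refine h1.congr_of_eventuallyEq (Eventually.of_forall fun u => ?_)
    simp only [hψ, Pi.add_apply]; ring
  have hdd : HasFDerivAt d ((1 / 2 : ℂ) • (fderiv ℂ al' v - fderiv ℂ al v)) v := by
    have h1 := (ha'.hasFDerivAt.sub ha.hasFDerivAt).const_mul (1 / 2 : ℂ)
    refine h1.congr_of_eventuallyEq (Eventually.of_forall fun u => ?_)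
    simp only [hd, Pi.sub_apply]; ring
  set dψ := (1 / 2 : ℂ) • (fderiv ℂ al v + fderiv ℂ al' v) with hdψ
  set dd := (1 / 2 : ℂ) • (fderiv ℂ al' v - fderiv ℂ al v) with hddd
  have hH1 : HasFDerivAt (fun u => H (ψ u)) (deriv H (ψ v) • dψ) v :=
    hH.differentiableAt.hasDerivAt.comp_hasFDerivAt v hψd
  have hH2 : HasFDerivAt (fun u => deriv H (ψ u)) (deriv (deriv H) (ψ v) • dψ) v :=
    HasDerivAt.comp_hasFDerivAt (h₂ := deriv H) v
      (hH.deriv.differentiableAt.hasDerivAt) hψd
  have hc : HasFDerivAt (fun u => Complex.cos (d u)) (-Complex.sin (d v) • dd) v :=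
    (Complex.hasDerivAt_cos (d v)).comp_hasFDerivAt v hdd
  have hs : HasFDerivAt (fun u => Complex.sin (d u)) (Complex.cos (d v) • dd) v :=
    (Complex.hasDerivAt_sin (d v)).comp_hasFDerivAt v hdd
  have hp : HasFDerivAt p _ v := ((hH1.mul hc).sub (hH2.mul hs)).congr_of_eventuallyEq (by
    filter_upwards [hR] with u hu
    exact hu.1)
  have hp' : HasFDerivAt p' _ v := ((hH1.mul hc).add (hH2.mul hs)).congr_of_eventuallyEq (by
    filter_upwards [hR] with u hu
    exact hu.2)
  have hda : dd e = dψ e - fderiv ℂ al v e := by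
    simp only [hddd, hdψ, _root_.smul_apply, _root_.add_apply, _root_.sub_apply, smul_eq_mul]
    ring
  refine ⟨hp.differentiableAt, hp'.differentiableAt, ?_, ?_, ?_⟩
  · rw [hp.fderiv, hψd.fderiv]
    simp only [_root_.smul_apply, _root_.add_apply, _root_.sub_apply, smul_eq_mul, hda]
    ring
  · rw [hψd.fderiv]
    simp only [hdψ, _root_.smul_apply, _root_.add_apply, smul_eq_mul]
    ring
  · rw [hp'.fderiv, hψd.fderiv]
    simp only [_root_.smul_apply, _root_.add_apply, smul_eq_mul, hda]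
    ring

end

end Vale.Agent.P097.H650
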