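import Vale.Agent.P097.H650.TayS

/-!
# Newton's lemma, analytic form

An approximate root `Y₀` of a polynomial `∑ aᵢ Yⁱ` with analytic coefficients, with
`P(Y₀) = s^(2L+1) G₁`, `P'(Y₀) = s^L G₂`, `G₂ ≠ 0`, is corrected to a root `Y₀ + s^(L+1) U`.
-/

set_option linter.unusedSectionVars false

namespace Vale.Agent.P097.H650

open Filter Topology

theorem newton_gen {E : Type*} [NormedAddCommGroup E] [NormedSpace ℂ E] [CompleteSpace E] {x₀ : E}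
    {s : E → ℂ} (hs : AnalyticAt ℂ s x₀) (hs0 : s x₀ = 0) {D L : ℕ} {a : ℕ → E → ℂ}
    (ha : ∀ i, AnalyticAt ℂ (a i) x₀) {Y0 G1 G2 : E → ℂ} (hY : AnalyticAt ℂ Y0 x₀)
    (hG1 : AnalyticAt ℂ G1 x₀) (hG2 : AnalyticAt ℂ G2 x₀)
    (h1 : ∀ᶠ u in 𝓝 x₀, ∑ i ∈ Finset.range (D+1), a i u * Y0 u ^ i = s u ^ (2*L+1) * G1 u)
    (h2 : ∀ᶠ u in 𝓝 x₀, ∑ i ∈ Finset.range (D+1), (i : ℂ) * a i u * Y0 u ^ (i-1) = s u ^ L * G2 u)
    (h3 : G2 x₀ ≠ 0) :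
    ∃ U : E → ℂ, AnalyticAt ℂ U x₀ ∧ U x₀ = -G1 x₀ / G2 x₀ ∧
      ∀ᶠ u in 𝓝 x₀, ∑ i ∈ Finset.range (D+1), a i u * (Y0 u + s u ^(L+1) * U u) ^ i = 0 := by
  set U0 : ℂ := -G1 x₀ / G2 x₀ with hU0
  set pl : AnAt x₀ →+* AnAt ((x₀, U0) : E × ℂ) :=
    AnAt.pull Prod.fst (x' := ((x₀, U0) : E × ℂ)) analyticAt_fst rfl with hpl
  set Q : Polynomial (AnAt ((x₀, U0) : E × ℂ)) :=
    ∑ i ∈ Finset.range (D+1), Polynomial.C (pl ⟨a i, ha i⟩) * Polynomial.X ^ i with hQ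
  set x : AnAt ((x₀, U0) : E × ℂ) := pl ⟨Y0, hY⟩ with hx
  have hya : AnalyticAt ℂ (fun v : E × ℂ => s v.1 ^ (L+1) * v.2) (x₀, U0) :=
    ((hs.fun_comp analyticAt_fst).fun_pow _).fun_mul analyticAt_snd
  set y : AnAt ((x₀, U0) : E × ℂ) := ⟨fun v => s v.1 ^ (L+1) * v.2, hya⟩ with hy
  obtain ⟨k, hk⟩ := Polynomial.binomExpansion Q x y
  have e1 : ∀ z : AnAt ((x₀, U0) : E × ℂ), ∀ v, (Q.eval z).1 v
      = ∑ i ∈ Finset.range (D+1), a i v.1 * (z.1 v) ^ i := by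
    intro z v
    rw [hQ, Polynomial.eval_finsetSum, AnAt.sum_apply]
    refine Finset.sum_congr rfl fun i _ => ?_
    rw [Polynomial.eval_mul, Polynomial.eval_C, Polynomial.eval_pow, Polynomial.eval_X]
    rfl
  have e2 : ∀ v, (Q.derivative.eval x).1 v
      = ∑ i ∈ Finset.range (D+1), (i : ℂ) * a i v.1 * (Y0 v.1) ^ (i-1) := by
    intro v
    rw [hQ, Polynomial.derivative_sum, Polynomial.eval_finsetSum, AnAt.sum_apply]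
    refine Finset.sum_congr rfl fun i _ => ?_
    rw [Polynomial.derivative_C_mul_X_pow, Polynomial.eval_mul, Polynomial.eval_C,
      Polynomial.eval_pow, Polynomial.eval_X]
    show (a i v.1 * (i : ℂ)) * (Y0 v.1) ^ (i-1) = _
    ring
  have e3 : ∀ v : E × ℂ, ∑ i ∈ Finset.range (D+1), a i v.1 * (Y0 v.1 + s v.1 ^ (L+1) * v.2) ^ i
      = (∑ i ∈ Finset.range (D+1), a i v.1 * Y0 v.1 ^ i)
        + (∑ i ∈ Finset.range (D+1), (i : ℂ) * a i v.1 * (Y0 v.1) ^ (i-1))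
          * (s v.1 ^ (L+1) * v.2) + k.1 v * (s v.1 ^ (L+1) * v.2) ^ 2 := by
    intro v
    have h4 : (Q.eval (x + y)).1 v
        = (Q.eval x + Q.derivative.eval x * y + k * y ^ 2).1 v := by rw [hk]
    rw [e1] at h4
    have h5 : (Q.eval x + Q.derivative.eval x * y + k * y ^ 2).1 v
        = (Q.eval x).1 v + (Q.derivative.eval x).1 v * (s v.1 ^ (L+1) * v.2)
          + k.1 v * (s v.1 ^ (L+1) * v.2) ^ 2 := rfl
    rw [h5, e1, e2] at h4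
    exact h4
  set G : E × ℂ → ℂ := fun v => G1 v.1 + G2 v.1 * v.2 + s v.1 * (k.1 v * v.2 ^ 2) with hG
  have hGa : AnalyticAt ℂ G (x₀, U0) := by
    have g1 : AnalyticAt ℂ (fun v : E × ℂ => G1 v.1) (x₀, U0) := hG1.fun_comp analyticAt_fst
    have g2 : AnalyticAt ℂ (fun v : E × ℂ => G2 v.1) (x₀, U0) := hG2.fun_comp analyticAt_fst
    have g3 : AnalyticAt ℂ (fun v : E × ℂ => s v.1) (x₀, U0) := hs.fun_comp analyticAt_fst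
    exact (g1.fun_add (g2.fun_mul analyticAt_snd)).fun_add
      (g3.fun_mul ((AnAt.an k).fun_mul (analyticAt_snd.fun_pow 2)))
  have hG0 : ∀ c, G (x₀, c) = G1 x₀ + G2 x₀ * c := by
    intro c
    show G1 x₀ + G2 x₀ * c + s x₀ * (k.1 (x₀, c) * c ^ 2) = _
    rw [hs0]
    ring
  have hG00 : G (x₀, U0) = 0 := by
    rw [hG0, hU0]
    field_simp
    ring
  have hGd : deriv (fun c => G (x₀, c)) U0 ≠ 0 := by
    have h4 : (fun c => G (x₀, c)) = fun c => G1 x₀ + G2 x₀ * c := funext hG0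
    rw [h4]
    have h5 : HasDerivAt (fun c : ℂ => G1 x₀ + G2 x₀ * c) (G2 x₀ * 1) U0 :=
      ((hasDerivAt_id U0).const_mul (G2 x₀)).const_add (G1 x₀)
    rw [h5.deriv, mul_one]
    exact h3
  obtain ⟨φ, hφ, hφ0, hφ1, _⟩ := ift_scalar hGa hG00 hGd
  refine ⟨φ, hφ, hφ0, ?_⟩
  filter_upwards [h1, h2, hφ1] with u g1 g2 g3
  have g4 := e3 (u, φ u)
  simp only at g4
  rw [g4, g1, g2]
  have g5 : G1 u + G2 u * φ u + s u * (k.1 (u, φ u) * φ u ^ 2) = 0 := g3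
  linear_combination (s u ^ (2 * L + 1)) * g5

/-- **Newton's lemma.** -/
theorem newton_core {t0 : ℂ} {D L : ℕ} {a : ℕ → ℂ × ℂ → ℂ} (ha : ∀ i, AnalyticAt ℂ (a i) (t0, 0))
    {Y0 G1 G2 : ℂ × ℂ → ℂ} (hY : AnalyticAt ℂ Y0 (t0, 0)) (hG1 : AnalyticAt ℂ G1 (t0, 0))
    (hG2 : AnalyticAt ℂ G2 (t0, 0))
    (h1 : ∀ᶠ u in 𝓝 (t0, (0:ℂ)),
      ∑ i ∈ Finset.range (D+1), a i u * Y0 u ^ i = u.2 ^ (2*L+1) * G1 u)
    (h2 : ∀ᶠ u in 𝓝 (t0, (0:ℂ)),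
      ∑ i ∈ Finset.range (D+1), (i : ℂ) * a i u * Y0 u ^ (i-1) = u.2 ^ L * G2 u)
    (h3 : G2 (t0, 0) ≠ 0) :
    ∃ U : ℂ × ℂ → ℂ, AnalyticAt ℂ U (t0, 0) ∧ ∀ᶠ u in 𝓝 (t0, (0:ℂ)),
      ∑ i ∈ Finset.range (D+1), a i u * (Y0 u + u.2^(L+1) * U u) ^ i = 0 := by
  obtain ⟨U, hU, _, h4⟩ := newton_gen (s := fun p : ℂ × ℂ => p.2) (x₀ := (t0, (0 : ℂ)))
    analyticAt_snd rfl ha hY hG1 hG2 h1 h2 h3
  exact ⟨U, hU, h4⟩

end Vale.Agent.P097.H650
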