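import Vale.Agent.P097.H650.PatchAlg

/-!
# The patch, final forms

`patchFull`: coefficients in a ring `R` of analytic functions on `U`.
`patchC`: constant coefficients.
-/

namespace Vale.Agent.P097.H650

open Filter Topology Polynomial

set_option linter.unusedSectionVars false

section

variable {E : Type*} [NormedAddCommGroup E] [NormedSpace ℂ E]
  {ι : Type*} {R : Type*} [CommRing R] {ev : R →+* (E → ℂ)} {U : Set E}

/-- **Patch theorem, final form.** `F : U → ℂ^ι` analytic, `S0` an independent set of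
coordinates. There are an independent set `S ⊇ S0` of coordinates and finitely many analytic
functions `D m ≢ 0` on `U` such that at every `u0` with all `D m u0 ≠ 0` the tuple `F` extends to
an analytic map `φ(u, x)`, `x` near `F_S(u0)`, with `φ(u, F_S u) = F u`, `φ(u,x)_i = x_i` for
`i ∈ S`, and every polynomial relation with coefficients in `R` true for `F` on `U` is true for
`φ`. -/
theorem patchFull [CompleteSpace E] [Fintype ι] [IsDomain R] [CharZero R] (hUo : IsOpen U)
    (hUp : IsPreconnected U) (hev : ∀ c, AnalyticOnNhd ℂ (ev c) U)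
    {F : E → ι → ℂ} (hF : AnalyticOnNhd ℂ F U) (S0 : Set ι)
    (h0 : Ind ev U (fun u (i : S0) => F u i)) :
    ∃ (S : Set ι) (_ : Fintype S), S0 ⊆ S ∧ Ind ev U (fun u (i : S) => F u i) ∧
      ∃ D : ι → E → ℂ, (∀ m, AnalyticOnNhd ℂ (D m) U) ∧ (∀ m, U.Nonempty → ∃ u ∈ U, D m u ≠ 0) ∧
        ∀ u0 ∈ U, (∀ m, D m u0 ≠ 0) →
          ∃ (φ : E × (S → ℂ) → ι → ℂ) (r : ℝ), 0 < r ∧ Metric.ball u0 r ⊆ U ∧
            AnalyticOnNhd ℂ φ (Metric.ball (u0, fun i : S => F u0 i) r) ∧
            (∀ p, ∀ i : S, φ p i = p.2 i) ∧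
            (∀ᶠ u in 𝓝 u0, φ (u, fun i : S => F u i) = F u) ∧
            φ (u0, fun i : S => F u0 i) = F u0 ∧
            (∀ᶠ v in 𝓝 (((u0, fun i : S => F u0 i), F u0) : (E × (S → ℂ)) × (ι → ℂ)),
              (∀ i : S, v.2 i = v.1.2 i) →
              (∀ Q : MvPolynomial ι R, (∀ u ∈ U, evM ev u (F u) Q = 0) →
                evM ev v.1.1 v.2 Q = 0) → φ v.1 = v.2) ∧
            ∀ Q : MvPolynomial ι R, (∀ u ∈ U, evM ev u (F u) Q = 0) →
              ∀ p ∈ Metric.ball (u0, fun i : S => F u0 i) r, evM ev p.1 (φ p) Q = 0 := by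
  classical
  obtain ⟨S, hS0, hSi, hSP⟩ := exists_basis (F := F) S0 h0
  choose! P hPv hPd using hSP
  let _ : Fintype S := Fintype.ofFinite S
  have hFi : ∀ (i : ι) (u : E), u ∈ U → AnalyticAt ℂ (fun v => F v i) u := fun i u hu =>
    ((ContinuousLinearMap.proj (R := ℂ) (φ := fun _ : ι => ℂ) i).analyticAt _).fun_comp (hF u hu)
  have hFS : AnalyticOnNhd ℂ (fun u (i : S) => F u i) U := fun u hu =>
    AnalyticAt.pi fun i => hFi i u hu
  let D : ι → E → ℂ := fun m u => if m ∈ S then 1 else
    (derivative (P m)).eval₂ (evM ev u (fun i : S => F u i)) (F u m)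
  refine ⟨S, Fintype.ofFinite S, hS0, hSi, D, ?_, ?_, ?_⟩
  · intro m
    by_cases hm : m ∈ S
    · simp only [D, hm, if_true]
      exact fun u hu => analyticAt_const
    · simp only [D, hm, if_false]
      exact fun u hu => analyticAt_evP (a := fun u : E => u) (fun c => hev c u hu)
        analyticAt_id (hFS u hu) (hFi m u hu) _
  · rintro m ⟨u, hu⟩
    by_cases hm : m ∈ S
    · exact ⟨u, hu, by simp [D, hm]⟩
    · obtain ⟨u, hu, h⟩ := hPd m hm
      exact ⟨u, hu, by simpa [D, hm] using h⟩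
  · intro u0 hu0 hD
    obtain ⟨r0, hr0, hball⟩ := Metric.isOpen_iff.1 hUo u0 hu0
    have hf : AnalyticAt ℂ (fun u (i : S) => F u i) u0 := hFS u0 hu0
    have hg : AnalyticAt ℂ (fun u (i : (Sᶜ : Set ι)) => F u i) u0 :=
      AnalyticAt.pi fun i => hFi i u0 hu0
    have hU0 : ∀ᶠ u in 𝓝 u0, u ∈ U := hUo.mem_nhds hu0
    obtain ⟨φ, r, hr, hrr, hφa, hφ0, hφf, -, hφu, hφQ⟩ := patch (ev := ev) hr0
      (fun c => (hev c).mono hball) hf hg (Ind.mono_nhds hUp hev hFS hSi hu0)
      (fun m : (Sᶜ : Set ι) => P m)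
      (fun m => by
        filter_upwards [hU0] with u hu
        exact hPv m m.2 u hu)
      (fun m => by
        have := hD m
        have hm : (m : ι) ∉ S := m.2
        simpa [D, hm] using this)
    let e : ι → S ⊕ (Sᶜ : Set ι) := fun i =>
      if h : i ∈ S then Sum.inl ⟨i, h⟩ else Sum.inr ⟨i, h⟩
    have heS : ∀ i : S, e i = Sum.inl i := fun i => by simp [e]
    have heF : ∀ u i, (Sum.elim (fun i : S => F u i) (fun i : (Sᶜ : Set ι) => F u i) :
        S ⊕ (Sᶜ : Set ι) → ℂ) (e i) = F u i := by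
      intro u i
      by_cases h : i ∈ S <;> simp [e, h]
    refine ⟨fun p i => (Sum.elim p.2 (φ p) : S ⊕ (Sᶜ : Set ι) → ℂ) (e i), r, hr,
      (Metric.ball_subset_ball hrr).trans hball, ?_, ?_, ?_, ?_, ?_, ?_⟩
    · intro p hp
      apply AnalyticAt.pi
      intro i
      rcases hei : e i with j | j
      · simp only [Sum.elim_inl]
        exact ((ContinuousLinearMap.proj (R := ℂ) (φ := fun _ : S => ℂ) j).analyticAt _).fun_comp
          analyticAt_snd
      · simp only [Sum.elim_inr]
        exact ((ContinuousLinearMap.proj (R := ℂ)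
          (φ := fun _ : (Sᶜ : Set ι) => ℂ) j).analyticAt _).fun_comp (hφa p hp)
    · intro p i
      simp only [heS, Sum.elim_inl]
    · filter_upwards [hφf] with u hu
      funext i
      show (Sum.elim _ _ : S ⊕ (Sᶜ : Set ι) → ℂ) (e i) = _
      rw [hu]
      exact heF u i
    · funext i
      show (Sum.elim _ _ : S ⊕ (Sᶜ : Set ι) → ℂ) (e i) = _
      rw [hφ0]
      exact heF u0 i
    · have hcont : ContinuousAt (fun v : (E × (S → ℂ)) × (ι → ℂ) =>
          (v.1, fun i : (Sᶜ : Set ι) => v.2 i)) ((u0, fun i : S => F u0 i), F u0) :=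
        continuousAt_fst.prodMk (continuousAt_pi.2 fun i =>
          (continuous_apply (i : ι)).continuousAt.comp continuousAt_snd)
      have h1 := hcont.tendsto.eventually hφu
      filter_upwards [h1] with v hv hvS hvQ
      have h2 : φ v.1 = fun i : (Sᶜ : Set ι) => v.2 i := by
        apply hv
        intro m
        set Q : MvPolynomial ι R := (P m).eval₂
          (MvPolynomial.rename (Subtype.val : S → ι) : MvPolynomial S R →ₐ[R] MvPolynomial ι R)
          (MvPolynomial.X (m : ι)) with hQdef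
        have hQe : ∀ (u : E) (y : ι → ℂ), evM ev u y Q
            = (P m).eval₂ (evM ev u (fun i : S => y i)) (y m) := by
          intro u y
          rw [hQdef]
          have := Polynomial.hom_eval₂ (P m)
            ((MvPolynomial.rename (Subtype.val : S → ι) :
              MvPolynomial S R →ₐ[R] MvPolynomial ι R) : MvPolynomial S R →+* MvPolynomial ι R)
            (evM ev u y) (MvPolynomial.X (m : ι))
          rw [evM_X] at this
          refine this.trans ?_
          have h3 : (evM ev u y).comp ((MvPolynomial.rename (Subtype.val : S → ι) :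
              MvPolynomial S R →ₐ[R] MvPolynomial ι R) : MvPolynomial S R →+* MvPolynomial ι R)
              = evM ev u (fun i : S => y i) := by
            apply MvPolynomial.ringHom_ext
            · intro c; simp
            · intro i; simp
          rw [h3]
        have h4 := hvQ Q (fun u hu => by
          rw [hQe]; exact hPv m m.2 u hu)
        rw [hQe] at h4
        have h5 : (fun i : S => v.2 i) = v.1.2 := funext hvS
        rw [h5] at h4
        exact h4
      funext i
      show (Sum.elim v.1.2 (φ v.1) : S ⊕ (Sᶜ : Set ι) → ℂ) (e i) = _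
      rw [h2]
      by_cases h : i ∈ S
      · have : e i = Sum.inl ⟨i, h⟩ := by simp [e, h]
        rw [this, Sum.elim_inl]
        exact (hvS ⟨i, h⟩).symm
      · have : e i = Sum.inr ⟨i, h⟩ := by simp [e, h]
        rw [this, Sum.elim_inr]
    · intro Q hQ p hp
      have hren : ∀ (u : E) (x : S ⊕ (Sᶜ : Set ι) → ℂ), evM ev u x (MvPolynomial.rename e Q)
          = evM ev u (fun i => x (e i)) Q := by
        intro u x
        unfold evM
        rw [MvPolynomial.coe_eval₂Hom, MvPolynomial.eval₂_rename, MvPolynomial.coe_eval₂Hom]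
        rfl
      have := hφQ (MvPolynomial.rename e Q) (by
        filter_upwards [hU0] with u hu
        rw [hren]
        have h2 : (fun i => (Sum.elim (fun i : S => F u i) (fun i : (Sᶜ : Set ι) => F u i) :
          S ⊕ (Sᶜ : Set ι) → ℂ) (e i)) = F u := funext (heF u)
        rw [h2]
        exact hQ u hu) p hp
      rw [hren] at this
      exact this

/-- **Patch theorem, constant coefficients.** -/
theorem patchC [CompleteSpace E] [Fintype ι] (hUo : IsOpen U)
    (hUp : IsPreconnected U)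
    {F : E → ι → ℂ} (hF : AnalyticOnNhd ℂ F U) (S0 : Set ι)
    (h0 : Ind (evC E) U (fun u (i : S0) => F u i)) :
    ∃ (S : Set ι) (_ : Fintype S), S0 ⊆ S ∧ Ind (evC E) U (fun u (i : S) => F u i) ∧
      ∃ D : ι → E → ℂ, (∀ m, AnalyticOnNhd ℂ (D m) U) ∧ (∀ m, U.Nonempty → ∃ u ∈ U, D m u ≠ 0) ∧
        ∀ u0 ∈ U, (∀ m, D m u0 ≠ 0) →
          ∃ (φ : (S → ℂ) → ι → ℂ) (r : ℝ), 0 < r ∧ Metric.ball u0 r ⊆ U ∧
            AnalyticOnNhd ℂ φ (Metric.ball (fun i : S => F u0 i) r) ∧
            (∀ x, ∀ i : S, φ x i = x i) ∧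
            (∀ᶠ u in 𝓝 u0, φ (fun i : S => F u i) = F u) ∧
            φ (fun i : S => F u0 i) = F u0 ∧
            ∀ Q : MvPolynomial ι ℂ, (∀ u ∈ U, MvPolynomial.eval (F u) Q = 0) →
              ∀ x ∈ Metric.ball (fun i : S => F u0 i) r, MvPolynomial.eval (φ x) Q = 0 := by
  classical
  obtain ⟨S, iS, hS0, hSi, D, hDa, hD0, hD⟩ := patchFull (ev := evC E) hUo hUp
    (fun c u _ => analyticAt_const) hF S0 h0
  refine ⟨S, iS, hS0, hSi, D, hDa, hD0, ?_⟩
  intro u0 hu0 hDu
  obtain ⟨φ, r, hr, hball, hφa, hφS, hφF, hφ0, hφu, hφQ⟩ := hD u0 hu0 hDu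
  have hmem : ∀ x ∈ Metric.ball (fun i : S => F u0 i) r,
      (u0, x) ∈ Metric.ball (u0, fun i : S => F u0 i) r := by
    intro x hx
    rw [Metric.mem_ball, Prod.dist_eq, dist_self]
    exact max_lt hr hx
  have hφQ' : ∀ Q : MvPolynomial ι ℂ, (∀ u ∈ U, MvPolynomial.eval (F u) Q = 0) →
      ∀ p ∈ Metric.ball (u0, fun i : S => F u0 i) r, MvPolynomial.eval (φ p) Q = 0 := by
    intro Q hQ p hp
    have := hφQ Q (fun u hu => by rw [evM_evC]; exact hQ u hu) p hp
    rwa [evM_evC] at this
  refine ⟨fun x => φ (u0, x), r, hr, hball, ?_, ?_, ?_, hφ0, ?_⟩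
  · intro x hx
    exact (hφa _ (hmem x hx)).fun_comp (AnalyticAt.prod analyticAt_const analyticAt_id)
  · intro x i
    exact hφS _ i
  · have hFS : ContinuousAt (fun u (i : S) => F u i) u0 :=
      continuousAt_pi.2 fun i => (continuous_apply (i : ι)).continuousAt.comp
        (hF u0 hu0).continuousAt
    have hcont : ContinuousAt (fun u => (((u0, fun i : S => F u i), F u) :
        (E × (S → ℂ)) × (ι → ℂ))) u0 :=
      (continuousAt_const.prodMk hFS).prodMk (hF u0 hu0).continuousAt
    have hU0 : ∀ᶠ u in 𝓝 u0, u ∈ U := hUo.mem_nhds hu0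
    filter_upwards [hcont.tendsto.eventually hφu, hU0] with u h1 h2
    apply h1
    · intro i; rfl
    · intro Q hQ
      have h3 := hQ u h2
      rw [evM_evC] at h3 ⊢
      exact h3
  · intro Q hQ x hx
    exact hφQ' Q hQ _ (hmem x hx)

end

end Vale.Agent.P097.H650
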