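import Vale.Agent.P097.H650.Patch

/-!
# Algebraic independence of analytic functions: maximal families, two-vertex independence
-/

namespace Vale.Agent.P097.H650

open Filter Topology Polynomial

set_option linter.unusedSectionVars false

section

variable {E : Type*} [NormedAddCommGroup E] [NormedSpace ℂ E]
  {σ τ κ ι : Type*} {R : Type*} [CommRing R]

/-- The family `f` is algebraically independent over `R` on the set `U`. -/
def Ind (ev : R →+* (E → ℂ)) (U : Set E) (f : E → σ → ℂ) : Prop :=
  ∀ Q : MvPolynomial σ R, (∀ u ∈ U, evM ev u (f u) Q = 0) → Q = 0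

variable {ev : R →+* (E → ℂ)} {U : Set E}

/-- Evaluation of a polynomial over `MvPolynomial σ R` is evaluation of a multivariate one. -/
theorem evM_option (u : E) (x : σ → ℂ) (y : ℂ) (Q : MvPolynomial (Option σ) R) :
    evM ev u (fun o => o.elim y x) Q
      = (MvPolynomial.optionEquivLeft R σ Q).eval₂ (evM ev u x) y := by
  have h : evM ev u (fun o => o.elim y x)
      = (Polynomial.eval₂RingHom (evM ev u x) y).comp
        (MvPolynomial.optionEquivLeft R σ : MvPolynomial (Option σ) R →+* _) := by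
    apply MvPolynomial.ringHom_ext
    · intro c
      simp [MvPolynomial.optionEquivLeft_C]
    · rintro (_ | i)
      · simp [MvPolynomial.optionEquivLeft_X_none]
      · simp [MvPolynomial.optionEquivLeft_X_some]
  rw [h]; rfl

/-- Separable annihilating polynomial of a dependent function. -/
theorem dep_poly [IsDomain R] [CharZero R] {f : E → σ → ℂ} {g : E → ℂ} (hf : Ind ev U f)
    (hg : ¬ Ind ev U (fun u (o : Option σ) => o.elim (g u) (f u))) :
    ∃ P : Polynomial (MvPolynomial σ R), (∀ u ∈ U, P.eval₂ (evM ev u (f u)) (g u) = 0) ∧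
      ∃ u ∈ U, (derivative P).eval₂ (evM ev u (f u)) (g u) ≠ 0 := by
  classical
  unfold Ind at hg
  push Not at hg
  obtain ⟨Q, hQ, hQ0⟩ := hg
  let S : Set ℕ := {n | ∃ P : Polynomial (MvPolynomial σ R), P ≠ 0 ∧ P.natDegree = n ∧
    ∀ u ∈ U, P.eval₂ (evM ev u (f u)) (g u) = 0}
  have hS : ∃ n, n ∈ S := by
    refine ⟨_, MvPolynomial.optionEquivLeft R σ Q, ?_, rfl, ?_⟩
    · simpa using hQ0
    · intro u hu
      rw [← evM_option]
      exact hQ u hu
  obtain ⟨P, hP0, hPn, hPv⟩ := Nat.find_spec hS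
  refine ⟨P, hPv, ?_⟩
  by_contra hcon
  push Not at hcon
  have hdeg : P.natDegree ≠ 0 := by
    intro h0
    apply hP0
    rw [Polynomial.natDegree_eq_zero] at h0
    obtain ⟨a, rfl⟩ := h0
    have : a = 0 := hf a (fun u hu => by simpa using hPv u hu)
    simp [this]
  have hlt : (derivative P).natDegree < P.natDegree := Polynomial.natDegree_derivative_lt hdeg
  have hd0 : derivative P ≠ 0 := by
    intro h
    exact hdeg (Polynomial.derivative_eq_zero.1 h)
  have hmem : (derivative P).natDegree ∈ S := ⟨derivative P, hd0, rfl, hcon⟩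
  have := Nat.find_min' hS hmem
  omega

/-- An independent subfamily extends to a maximal one, with separable annihilating polynomials
for the remaining functions. -/
theorem exists_basis [IsDomain R] [CharZero R] [Finite ι] {F : E → ι → ℂ} (S0 : Set ι)
    (h0 : Ind ev U (fun u (i : S0) => F u i)) :
    ∃ S : Set ι, S0 ⊆ S ∧ Ind ev U (fun u (i : S) => F u i) ∧
      ∀ m ∉ S, ∃ P : Polynomial (MvPolynomial S R),
        (∀ u ∈ U, P.eval₂ (evM ev u (fun i : S => F u i)) (F u m) = 0) ∧
        ∃ u ∈ U, (derivative P).eval₂ (evM ev u (fun i : S => F u i)) (F u m) ≠ 0 := by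
  classical
  obtain ⟨S, hS⟩ := (Set.toFinite {S : Set ι | S0 ⊆ S ∧
    Ind ev U (fun u (i : S) => F u i)}).exists_maximal ⟨S0, subset_rfl, h0⟩
  refine ⟨S, hS.prop.1, hS.prop.2, ?_⟩
  intro m hm
  apply dep_poly hS.prop.2
  intro hind
  have hbig : Ind ev U (fun u (i : (insert m S : Set ι)) => F u i) := by
    intro Q hQ
    let e : (insert m S : Set ι) ≃ Option S :=
      (Equiv.Set.insert hm).trans (Equiv.optionEquivSumPUnit S).symm
    have he : ∀ (u : E) (i : (insert m S : Set ι)),
        (fun o : Option S => o.elim (F u m) (fun i : S => F u i)) (e i) = F u i := by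
      intro u i
      obtain ⟨o, rfl⟩ := e.symm.surjective i
      rw [Equiv.apply_symm_apply]
      rcases o with _ | j
      · simp [e]
      · simp [e]
    have h1 : MvPolynomial.rename e Q = 0 := by
      apply hind
      intro u hu
      have h2 := hQ u hu
      have h3 : evM ev u (fun o : Option S => o.elim (F u m) (fun i : S => F u i))
          (MvPolynomial.rename e Q) = evM ev u (fun i : (insert m S : Set ι) => F u i) Q := by
        unfold evM
        rw [MvPolynomial.coe_eval₂Hom, MvPolynomial.eval₂_rename, MvPolynomial.coe_eval₂Hom]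
        congr 1
        exact funext (he u)
      rw [h3, h2]
    have hinj : Function.Injective (MvPolynomial.rename e : MvPolynomial _ R →ₐ[R] _) :=
      MvPolynomial.rename_injective _ e.injective
    exact hinj (by rw [h1, map_zero])
  have hle : (insert m S : Set ι) ⊆ S :=
    hS.le_of_ge ⟨hS.prop.1.trans (Set.subset_insert _ _), hbig⟩ (Set.subset_insert _ _)
  exact hm (hle (Set.mem_insert _ _))

/-- Finitely many analytic functions, none identically zero, are simultaneously nonzero
arbitrarily near every point. -/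
theorem exists_generic [Finite κ] (hUo : IsOpen U) (hUp : IsPreconnected U)
    {D : κ → E → ℂ} (hD : ∀ m, AnalyticOnNhd ℂ (D m) U) (hD0 : ∀ m, ∃ u ∈ U, D m u ≠ 0)
    {V : Set E} (hVo : IsOpen V) (hV : (V ∩ U).Nonempty) :
    ∃ u ∈ V ∩ U, ∀ m, D m u ≠ 0 := by
  classical
  have main : ∀ s : Set κ, s.Finite → ∃ u ∈ V ∩ U, ∀ m ∈ s, D m u ≠ 0 := by
    intro s hs
    induction s, hs using Set.Finite.induction_on with
    | empty => obtain ⟨u, hu⟩ := hV; exact ⟨u, hu, by simp⟩
    | @insert a s ha hs ih =>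
      obtain ⟨u, hu, hne⟩ := ih
      have hev : ∀ᶠ v in 𝓝 u, v ∈ V ∩ U ∧ ∀ m ∈ s, D m v ≠ 0 := by
        have h1 : ∀ᶠ v in 𝓝 u, v ∈ V ∩ U := (hVo.inter hUo).mem_nhds hu
        have h2 : ∀ m ∈ s, ∀ᶠ v in 𝓝 u, D m v ≠ 0 := fun m hm =>
          (hD m u hu.2).continuousAt.eventually_ne (hne m hm)
        exact h1.and ((hs.eventually_all).2 h2)
      have hfr : ∃ᶠ v in 𝓝 u, D a v ≠ 0 := by
        intro hcon
        have hz : D a =ᶠ[𝓝 u] 0 := by
          filter_upwards [hcon] with v hv
          simpa using hv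
        obtain ⟨u', hu', hne'⟩ := hD0 a
        exact hne' ((hD a).eqOn_zero_of_preconnected_of_eventuallyEq_zero hUp hu.2 hz hu')
      obtain ⟨v, hv1, hv2⟩ := (hfr.and_eventually hev).exists
      refine ⟨v, hv2.1, ?_⟩
      intro m hm
      rcases Set.mem_insert_iff.1 hm with rfl | hm
      · exact hv1
      · exact hv2.2 m hm
  obtain ⟨u, hu, h⟩ := main Set.univ Set.finite_univ
  exact ⟨u, hu, fun m => h m (Set.mem_univ _)⟩

/-- Identity theorem form of independence. -/
theorem Ind.mono_nhds [Fintype σ] {f : E → σ → ℂ} (hUp : IsPreconnected U)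
    (hev : ∀ c, AnalyticOnNhd ℂ (ev c) U) (hf : AnalyticOnNhd ℂ f U) (h : Ind ev U f)
    {u0 : E} (hu0 : u0 ∈ U) :
    ∀ Q : MvPolynomial σ R, (∀ᶠ u in 𝓝 u0, evM ev u (f u) Q = 0) → Q = 0 := by
  intro Q hQ
  apply h
  have han : AnalyticOnNhd ℂ (fun u => evM ev u (f u) Q) U := fun u hu =>
    analyticAt_evM (a := fun u : E => u) (fun c => hev c u hu) analyticAt_id (hf u hu) Q
  exact fun u hu => han.eqOn_zero_of_preconnected_of_eventuallyEq_zero hUp hu0 hQ hu

end

section two

variable {E : Type*} [NormedAddCommGroup E] [NormedSpace ℂ E] {κ κ' : Type*}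

/-- The constant coefficient ring. -/
def evC (E : Type*) : ℂ →+* (E → ℂ) := Pi.constRingHom E ℂ

@[simp] theorem evC_apply (c : ℂ) (u : E) : evC E c u = c := rfl

theorem evM_evC {σ : Type*} (u : E) (x : σ → ℂ) (Q : MvPolynomial σ ℂ) :
    evM (evC E) u x Q = MvPolynomial.eval x Q := by
  unfold evM
  have : evR (evC E) u = RingHom.id ℂ := by ext; simp
  rw [this]; rfl

/-- Two-variable independence: if the pairs `(a u, b u)` fill a product set, independent functions
of `a` and independent functions of `b` are jointly independent. -/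
theorem ind_two {U : Set E} {α β : Type*} {a : E → α} {b : E → β} {G : α → κ → ℂ}
    {G' : β → κ' → ℂ} {A : Set α} {B : Set β}
    (hAB : ∀ x ∈ A, ∀ y ∈ B, ∃ u ∈ U, a u = x ∧ b u = y)
    (hA : ∀ Q : MvPolynomial κ ℂ, (∀ x ∈ A, MvPolynomial.eval (G x) Q = 0) → Q = 0)
    (hB : ∀ Q : MvPolynomial κ' ℂ, (∀ y ∈ B, MvPolynomial.eval (G' y) Q = 0) → Q = 0) :
    Ind (evC E) U (fun u => Sum.elim (G (a u)) (G' (b u))) := by
  intro Q hQ
  set Q' := MvPolynomial.sumRingEquiv ℂ κ κ' Q with hQ'
  have heval : ∀ x y, MvPolynomial.eval (Sum.elim (G x) (G' y)) Q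
      = MvPolynomial.eval (G x) (MvPolynomial.map (MvPolynomial.eval (G' y)) Q') := by
    intro x y
    have h : (MvPolynomial.eval (Sum.elim (G x) (G' y)) : MvPolynomial (κ ⊕ κ') ℂ →+* ℂ)
        = ((MvPolynomial.eval (G x)).comp (MvPolynomial.map (MvPolynomial.eval (G' y)))).comp
          (MvPolynomial.sumRingEquiv ℂ κ κ' : MvPolynomial (κ ⊕ κ') ℂ →+* _) := by
      apply MvPolynomial.ringHom_ext
      · intro c; simp
      · rintro (i | j) <;> simp
    rw [h]; rfl
  have h1 : ∀ y ∈ B, MvPolynomial.map (MvPolynomial.eval (G' y)) Q' = 0 := by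
    intro y hy
    apply hA
    intro x hx
    rw [← heval]
    obtain ⟨u, hu, rfl, rfl⟩ := hAB x hx y hy
    have := hQ u hu
    rwa [evM_evC] at this
  have h2 : Q' = 0 := by
    ext1 m
    rw [MvPolynomial.coeff_zero]
    apply hB
    intro y hy
    have := congrArg (MvPolynomial.coeff m) (h1 y hy)
    rwa [MvPolynomial.coeff_map, MvPolynomial.coeff_zero] at this
  rw [hQ'] at h2
  exact (MvPolynomial.sumRingEquiv ℂ κ κ').map_eq_zero_iff.1 h2

end two

end Vale.Agent.P097.H650
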