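import Vale.Agent.P097.H690.Fct.Fld
import Vale.Agent.P097.H650.PatchAlg
import Vale.Agent.P097.H367.FR.Chain

/-!
# The ring of periodic analytic functions and the field of fractions

`PerR Ω` : functions analytic on the open connected set `Ω`, 1-periodic in the first variable.
`evP Ω : PerR Ω →+* (ℂ × ℂ → ℂ)`, `dlP v : PerR Ω → PerR Ω`.
`ind_algInd` : independence on `U ⊆ Ω` = algebraic independence in `Mf U`.
`chain_bound` : a reflection chain with outer data in `PerR Ω` has finite type.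
-/

set_option linter.unusedSectionVars false
set_option linter.style.haveILetI false

namespace Vale.Agent.P097.H650

open Filter Topology Vale.Agent.P097.H365 Vale.Agent.P097.H690 Vale.Agent.P097.H367.FR

/-- analytic and periodic functions on `Ω` -/
def perSub (Ω : Set (ℂ × ℂ)) : Subring (An Ω) where
  carrier := {g | ∀ u v : Ω, v.1 = (u.1.1 + 1, u.1.2) → (g : Ω → ℂ) v = (g : Ω → ℂ) u}
  mul_mem' := by
    intro a b ha hb u v h
    show (a : Ω → ℂ) v * (b : Ω → ℂ) v = (a : Ω → ℂ) u * (b : Ω → ℂ) u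
    rw [ha u v h, hb u v h]
  add_mem' := by
    intro a b ha hb u v h
    show (a : Ω → ℂ) v + (b : Ω → ℂ) v = (a : Ω → ℂ) u + (b : Ω → ℂ) u
    rw [ha u v h, hb u v h]
  one_mem' := fun u v _ => rfl
  zero_mem' := fun u v _ => rfl
  neg_mem' := by
    intro a ha u v h
    show -(a : Ω → ℂ) v = -(a : Ω → ℂ) u
    rw [ha u v h]

/-- the ring of analytic and periodic functions on `Ω` -/
def PerR (Ω : Set (ℂ × ℂ)) : Type := perSub Ω

noncomputable instance (Ω : Set (ℂ × ℂ)) : CommRing (PerR Ω) :=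
  inferInstanceAs (CommRing (perSub Ω))

/-- the underlying function -/
noncomputable def PerR.val (Ω : Set (ℂ × ℂ)) : PerR Ω →+* An Ω := (perSub Ω).subtype

theorem PerR.val_inj (Ω : Set (ℂ × ℂ)) : Function.Injective (PerR.val Ω) :=
  Subtype.val_injective

theorem PerR.per {Ω : Set (ℂ × ℂ)} (c : PerR Ω) (u v : Ω) (h : v.1 = (u.1.1 + 1, u.1.2)) :
    (PerR.val Ω c : Ω → ℂ) v = (PerR.val Ω c : Ω → ℂ) u := c.2 u v h

section

variable {Ω U : Set (ℂ × ℂ)} [hΩ : Dom Ω] [hU : Dom U]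

instance : IsDomain (PerR Ω) := (PerR.val_inj Ω).isDomain (PerR.val Ω)

instance : CharZero (PerR Ω) := by
  have h : CharZero (An Ω) := charZero_of_injective_algebraMap (algebraMap ℂ (An Ω)).injective
  refine ⟨fun a b hab => ?_⟩
  have h1 := congrArg (PerR.val Ω) hab
  rw [map_natCast, map_natCast] at h1
  exact Nat.cast_injective h1

/-- a point as a point of `Ω` -/
noncomputable def ptΩ (Ω : Set (ℂ × ℂ)) [hΩ : Dom Ω] (u : ℂ × ℂ) : Ω :=
  open Classical in if h : u ∈ Ω then ⟨u, h⟩ else ⟨hΩ.n.some, hΩ.n.some_mem⟩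

theorem ptΩ_of {u : ℂ × ℂ} (h : u ∈ Ω) : ptΩ Ω u = ⟨u, h⟩ := by
  unfold ptΩ
  rw [dif_pos h]

/-- evaluation -/
noncomputable def evP (Ω : Set (ℂ × ℂ)) [hΩ : Dom Ω] : PerR Ω →+* (ℂ × ℂ → ℂ) :=
  RingHom.pi fun u => ((evA (ptΩ Ω u)).toRingHom).comp (PerR.val Ω)

theorem evP_of (c : PerR Ω) {u : ℂ × ℂ} (h : u ∈ Ω) : evP Ω c u = evA ⟨u, h⟩ (PerR.val Ω c) := by
  show evA (ptΩ Ω u) (PerR.val Ω c) = _
  rw [ptΩ_of h]

theorem evP_rep (c : PerR Ω) {u : ℂ × ℂ} (h : u ∈ Ω) : evP Ω c u = rep (PerR.val Ω c) u := by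
  rw [evP_of c h]
  exact rep_eq (PerR.val Ω c) ⟨u, h⟩

theorem evP_analytic (c : PerR Ω) : AnalyticOnNhd ℂ (evP Ω c) Ω := by
  intro u hu
  refine (rep_an (PerR.val Ω c) u hu).congr ?_
  filter_upwards [hΩ.o.mem_nhds hu] with v hv
  exact (evP_rep c hv).symm

theorem evP_periodic (c : PerR Ω) {u : ℂ × ℂ} (h : u ∈ Ω) (h' : (u.1 + 1, u.2) ∈ Ω) :
    evP Ω c (u.1 + 1, u.2) = evP Ω c u := by
  rw [evP_of c h, evP_of c h']
  exact c.per ⟨u, h⟩ ⟨_, h'⟩ rfl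

/-- a periodic analytic function as an element of the ring -/
noncomputable def toP (F : ℂ × ℂ → ℂ) (hF : AnalyticOnNhd ℂ F Ω) (hp : ∀ u ∈ Ω, F (u.1 + 1, u.2) = F u) :
    PerR Ω :=
  ⟨toAn F hF, fun u v h => by
    show F v = F u
    rw [h, hp u.1 u.2]⟩

theorem evP_toP {F : ℂ × ℂ → ℂ} (hF : AnalyticOnNhd ℂ F Ω) (hp : ∀ u ∈ Ω, F (u.1 + 1, u.2) = F u)
    {u : ℂ × ℂ} (h : u ∈ Ω) : evP Ω (toP F hF hp) u = F u := by
  rw [evP_of _ h]
  exact evA_toAn F hF ⟨u, h⟩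

theorem evP_inj {c c' : PerR Ω} (h : ∀ u ∈ Ω, evP Ω c u = evP Ω c' u) : c = c' := by
  refine Subtype.ext (An.ext' fun u => ?_)
  have := h u.1 u.2
  rw [evP_of _ u.2, evP_of _ u.2] at this
  exact this

/-- derivative on the ring; `Ω` is invariant under the translation by the period -/
noncomputable def dlP (hper : ∀ u : ℂ × ℂ, u ∈ Ω → (u.1 + 1, u.2) ∈ Ω) (v : ℂ × ℂ) (c : PerR Ω) :
    PerR Ω :=
  ⟨dA v (PerR.val Ω c), by
    intro u w h
    have h1 : ((dA v (PerR.val Ω c) : An Ω) : Ω → ℂ) w = fderiv ℂ (rep (PerR.val Ω c)) w.1 v := by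
      conv_lhs => rw [← toAn_rep (PerR.val Ω c), dA_toAn]
      rfl
    have h2 : ((dA v (PerR.val Ω c) : An Ω) : Ω → ℂ) u = fderiv ℂ (rep (PerR.val Ω c)) u.1 v := by
      conv_lhs => rw [← toAn_rep (PerR.val Ω c), dA_toAn]
      rfl
    rw [h1, h2]
    have h3 : (fun x : ℂ × ℂ => rep (PerR.val Ω c) (x + (1, 0))) =ᶠ[𝓝 u.1] rep (PerR.val Ω c) := by
      filter_upwards [hΩ.o.mem_nhds u.2] with x hx
      have h4 : x + (1, 0) = (x.1 + 1, x.2) := by
        ext <;> simp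
      have h5 := evP_periodic c hx (hper x hx)
      rw [evP_rep c hx, evP_rep c (hper x hx)] at h5
      rw [h4, h5]
    have h6 := h3.fderiv_eq (𝕜 := ℂ)
    rw [fderiv_comp_add_right] at h6
    have h7 : w.1 = u.1 + (1, 0) := by
      rw [h]
      ext <;> simp
    rw [h7, h6]⟩

theorem evP_dlP (hper : ∀ u : ℂ × ℂ, u ∈ Ω → (u.1 + 1, u.2) ∈ Ω) (v : ℂ × ℂ) (c : PerR Ω)
    {u : ℂ × ℂ} (h : u ∈ Ω) : evP Ω (dlP hper v c) u = fderiv ℂ (evP Ω c) u v := by
  rw [evP_of _ h]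
  have h2 : ((dA v (PerR.val Ω c) : An Ω) : Ω → ℂ) ⟨u, h⟩ = fderiv ℂ (rep (PerR.val Ω c)) u v := by
    conv_lhs => rw [← toAn_rep (PerR.val Ω c), dA_toAn]
    rfl
  have h3 : evP Ω c =ᶠ[𝓝 u] rep (PerR.val Ω c) := by
    filter_upwards [hΩ.o.mem_nhds h] with x hx using evP_rep c hx
  rw [h3.fderiv_eq]
  exact h2

/-- restriction to `U` -/
noncomputable def resP (h : U ⊆ Ω) : PerR Ω →+* An U := 
  (resA h).toRingHom.comp (PerR.val Ω)

theorem evA_resP (h : U ⊆ Ω) (c : PerR Ω) (u : U) : evA u (resP h c) = evP Ω c u := by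
  rw [evP_of c (h u.2)]
  rfl

theorem resP_inj (h : U ⊆ Ω) : Function.Injective (resP h) := by
  intro a b hab
  exact Subtype.ext (resA_inj h hab)

theorem resP_dlP (hper : ∀ u : ℂ × ℂ, u ∈ Ω → (u.1 + 1, u.2) ∈ Ω) (h : U ⊆ Ω) (v : ℂ × ℂ)
    (c : PerR Ω) : resP h (dlP hper v c) = dA v (resP h c) := by
  show resA h (dA v (PerR.val Ω c)) = dA v (resA h (PerR.val Ω c))
  conv_lhs => rw [← toAn_rep (PerR.val Ω c), dA_toAn, resA_toAn]
  conv_rhs => rw [← toAn_rep (PerR.val Ω c), resA_toAn, dA_toAn]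

/-- the ring in the field of fractions -/
noncomputable def PM (h : U ⊆ Ω) : PerR Ω →+* Mf U := (algebraMap (An U) (Mf U)).comp (resP h)

theorem PM_inj (h : U ⊆ Ω) : Function.Injective (PM h) :=
  (IsFractionRing.injective (An U) (Mf U)).comp (resP_inj h)

theorem PM_toM (h : U ⊆ Ω) (c : PerR Ω) : PM h c = toM (evP Ω c) ((evP_analytic c).mono h) := by
  show algebraMap (An U) (Mf U) (resP h c) = algebraMap (An U) (Mf U) _
  congr 1
  exact An.ext' fun u => evA_resP h c u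

theorem PM_dlP (hper : ∀ u : ℂ × ℂ, u ∈ Ω → (u.1 + 1, u.2) ∈ Ω) (h : U ⊆ Ω) (v : ℂ × ℂ)
    (c : PerR Ω) : PM h (dlP hper v c) = dM v (PM h c) := by
  show algebraMap (An U) (Mf U) (resP h _) = dM v (algebraMap (An U) (Mf U) (resP h c))
  rw [dM_algebraMap, resP_dlP]

/-- polynomials over the ring evaluated in the field and pointwise -/
theorem eval₂_PM (h : U ⊆ Ω) {σ : Type*} {f : ℂ × ℂ → σ → ℂ}
    (hf : ∀ i, AnalyticOnNhd ℂ (fun u => f u i) U) (Q : MvPolynomial σ (PerR Ω)) :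
    MvPolynomial.eval₂ (PM h) (fun i => toM (fun u => f u i) (hf i)) Q = 0 ↔
      ∀ u ∈ U, evM (evP Ω) u (f u) Q = 0 := by
  have h1 : MvPolynomial.eval₂ (PM h) (fun i => toM (fun u => f u i) (hf i)) Q
      = algebraMap (An U) (Mf U)
        (MvPolynomial.eval₂ (resP h) (fun i => toAn (fun u => f u i) (hf i)) Q) := by
    rw [MvPolynomial.eval₂_comp_left]
    rfl
  have h2 : ∀ u : U, evA u (MvPolynomial.eval₂ (resP h) (fun i => toAn (fun u => f u i) (hf i)) Q)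
      = evM (evP Ω) u (f u) Q := by
    intro u
    have h3 : evA u (MvPolynomial.eval₂ (resP h) (fun i => toAn (fun u => f u i) (hf i)) Q)
        = (evA u : An U →+* ℂ)
          (MvPolynomial.eval₂ (resP h) (fun i => toAn (fun u => f u i) (hf i)) Q) := rfl
    rw [h3, MvPolynomial.eval₂_comp_left]
    have h4 : ((evA u : An U →+* ℂ).comp (resP h)) = evR (evP Ω) (u : ℂ × ℂ) := by
      ext c
      exact evA_resP h c u
    rw [h4]
    rfl
  rw [h1, map_eq_zero_iff _ (IsFractionRing.injective (An U) (Mf U))]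
  constructor
  · intro h3 u hu
    rw [← h2 ⟨u, hu⟩, h3, map_zero]
  · intro h3
    refine An.ext' fun u => ?_
    rw [h2, map_zero]
    exact h3 u u.2

theorem ind_algInd (h : U ⊆ Ω) {σ : Type*} {f : ℂ × ℂ → σ → ℂ}
    (hf : ∀ i, AnalyticOnNhd ℂ (fun u => f u i) U) :
    letI : Algebra (PerR Ω) (Mf U) := (PM h).toAlgebra
    Ind (evP Ω) U f ↔ AlgebraicIndependent (PerR Ω) fun i => toM (fun u => f u i) (hf i) := by
  letI : Algebra (PerR Ω) (Mf U) := (PM h).toAlgebra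
  rw [algebraicIndependent_iff]
  constructor
  · intro h1 Q hQ
    exact h1 Q ((eval₂_PM h hf Q).1 hQ)
  · intro h1 Q hQ
    exact h1 Q ((eval₂_PM h hf Q).2 hQ)

/-- **Finite type** of a reflection chain with outer data in the ring of periodic functions. -/
theorem chain_bound (hper : ∀ u : ℂ × ℂ, u ∈ Ω → (u.1 + 1, u.2) ∈ Ω) (h : U ⊆ Ω) {n : ℕ}
    (hn : 0 < n) {P Q E : ℕ → Mf U}
    (hch : IsChain ((dM (0, 1) : Derivation ℂ (Mf U) (Mf U)).restrictScalars ℤ)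
      ((dM (1, 0) : Derivation ℂ (Mf U) (Mf U)).restrictScalars ℤ) n P Q E)
    (o1 : ∃ c : PerR Ω, PM h c = E 0) (o2 : ∃ c : PerR Ω, PM h c = P 0 - E 0 ^ 2 * Q 0)
    (o3 : ∃ c : PerR Ω, PM h c = E n)
    (o4 : ∃ c : PerR Ω, PM h c = P (n - 1) - E n ^ 2 * Q (n - 1))
    (hq : ∀ j < n, dM (1, 0) (Q j) ≠ 0)
    (hs : ∀ i < n, ∀ j < n, i ≠ j →
      dM (0, 1) (Q i) / dM (1, 0) (Q i) ≠ dM (0, 1) (Q j) / dM (1, 0) (Q j)) :
    ∃ L : Subfield (Mf U), (∀ j < n, P j ∈ L ∧ Q j ∈ L ∧ E j ∈ L ∧ E (j + 1) ∈ L) ∧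
      (∀ x ∈ L, dM (0, 1) x ∈ L ∧ dM (1, 0) x ∈ L) ∧ (∀ c : PerR Ω, PM h c ∈ L) ∧
      ∃ N : ℕ, ∀ (m : ℕ) (f : ℂ × ℂ → Fin m → ℂ)
        (hf : ∀ i, AnalyticOnNhd ℂ (fun u => f u i) U),
        (∀ i, toM (fun u => f u i) (hf i) ∈ L) → Ind (evP Ω) U f → m ≤ N := by
  letI i1 : Algebra (PerR Ω) (Mf U) := (PM h).toAlgebra
  have i2 : FaithfulSMul (PerR Ω) (Mf U) :=
    (faithfulSMul_iff_algebraMap_injective (PerR Ω) (Mf U)).2 (PM_inj h)
  letI i3 : Algebra (FractionRing (PerR Ω)) (Mf U) := FractionRing.liftAlgebra (PerR Ω) (Mf U)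
  have i4 : IsScalarTower (PerR Ω) (FractionRing (PerR Ω)) (Mf U) :=
    FractionRing.isScalarTower_liftAlgebra (PerR Ω) (Mf U)
  have e0 : ∀ c : PerR Ω, algebraMap (FractionRing (PerR Ω)) (Mf U)
      (algebraMap (PerR Ω) (FractionRing (PerR Ω)) c) = PM h c := fun c =>
    (IsScalarTower.algebraMap_apply (PerR Ω) (FractionRing (PerR Ω)) (Mf U) c).symm
  have i5 : CharZero (FractionRing (PerR Ω)) := inferInstance
  have hst : ∀ v : ℂ × ℂ, ∀ k : FractionRing (PerR Ω), ∃ k' : FractionRing (PerR Ω),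
      dM v (algebraMap _ (Mf U) k) = algebraMap _ (Mf U) k' := by
    intro v k
    obtain ⟨a, b, hb, rfl⟩ := IsFractionRing.div_surjective (A := PerR Ω) k
    have hb0 : b ≠ 0 := nonZeroDivisors.ne_zero hb
    have hb1 : PM h b ≠ 0 := by
      rw [Ne, map_eq_zero_iff _ (PM_inj h)]
      exact hb0
    refine ⟨(algebraMap _ _ (dlP hper v a) - algebraMap _ _ a / algebraMap _ _ b *
      algebraMap _ _ (dlP hper v b)) / algebraMap _ _ b, ?_⟩
    simp only [map_div₀, map_sub, map_mul, e0]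
    rw [der_div _ _ _ hb1, ← PM_dlP, ← PM_dlP]
  have o : ∀ x : Mf U, (∃ c : PerR Ω, PM h c = x) →
      ∃ k : FractionRing (PerR Ω), algebraMap _ (Mf U) k = x := by
    rintro x ⟨c, hc⟩
    exact ⟨algebraMap _ _ c, by rw [e0, hc]⟩
  obtain ⟨L, hL1, hL2, N, hN⟩ := hch.finite hn (hst (0, 1)) (hst (1, 0)) (fun x => dM_comm _ _ x)
    (o _ o1) (o _ o2) (o _ o3) (o _ o4) hq hs
  refine ⟨L.toSubfield, hL1, hL2, ?_, N, ?_⟩
  · intro c
    rw [← e0]
    exact L.algebraMap_mem _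
  · intro m f hf hfL hI
    have i6 : Algebra.IsAlgebraic (PerR Ω) (FractionRing (PerR Ω)) :=
      (IsFractionRing.comap_isAlgebraic_iff (A := PerR Ω) (K := FractionRing (PerR Ω))
        (C := FractionRing (PerR Ω))).2 inferInstance
    refine hN m (fun i => toM (fun u => f u i) (hf i)) hfL ?_
    exact ((ind_algInd h hf).1 hI).extendScalars (FractionRing (PerR Ω))

end

end Vale.Agent.P097.H650
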