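import Vale.Agent.P097.H650.RR1
import Vale.Agent.P097.H690.Fct.Nat
import Vale.Agent.P097.H531.Flat.Defo

/-!
# Algebraic functions along the real line, the ring of periodic functions for the natural word
-/

set_option linter.unusedSectionVars false
set_option linter.style.haveILetI false

namespace Vale.Agent.P097.H650

open Complex Metric Filter Topology Set
open Vale.Agent.P097.H365 Vale.Agent.P097.H690
open Vale.Agent.P097.H202 (Lines)
open Vale.Agent.P097.H456.Fct (Let Word SWord Box NBox nat Ctx PerAn AlgOn Outer)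

/-- propagation of an identity along the real line -/
theorem line_prop {g : ℂ × ℂ → ℂ} (hg : ∀ t : ℝ, AnalyticAt ℂ g ((t : ℂ), 0)) {t0 : ℝ}
    (h : ∀ᶠ u in 𝓝 ((t0 : ℂ), (0 : ℂ)), g u = 0) (t : ℝ) :
    ∀ᶠ u in 𝓝 ((t : ℂ), (0 : ℂ)), g u = 0 := by
  set S : Set ℝ := {t : ℝ | ∀ᶠ u in 𝓝 ((t : ℂ), (0 : ℂ)), g u = 0} with hS
  have hc : Continuous fun t : ℝ => ((t : ℂ), (0 : ℂ)) := by fun_prop
  have ho : IsOpen S := by
    rw [isOpen_iff_mem_nhds]
    intro t ht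
    exact hc.continuousAt.eventually (eventually_eventually_nhds.2 ht)
  have hcl : IsClosed S := by
    rw [← closure_subset_iff_isClosed]
    intro t ht
    obtain ⟨ρ, hρ, hb⟩ := Metric.eventually_nhds_iff_ball.1 (hg t).eventually_analyticAt
    have h1 : ∀ᶠ t' : ℝ in 𝓝 t, ((t' : ℂ), (0 : ℂ)) ∈ ball ((t : ℂ), (0 : ℂ)) ρ :=
      hc.continuousAt.eventually (ball_mem_nhds _ hρ)
    obtain ⟨t', h2, h3⟩ := ((mem_closure_iff_frequently.1 ht).and_eventually h1).exists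
    have h4 : EqOn g 0 (ball ((t : ℂ), (0 : ℂ)) ρ) :=
      AnalyticOnNhd.eqOn_zero_of_preconnected_of_eventuallyEq_zero hb
        (convex_ball _ _).isPreconnected h3 h2
    show ∀ᶠ u in 𝓝 ((t : ℂ), (0 : ℂ)), g u = 0
    filter_upwards [ball_mem_nhds _ hρ] with u hu using h4 hu
  have h1 : S = univ := IsClopen.eq_univ ⟨hcl, ho⟩ ⟨t0, h⟩
  have h2 : t ∈ S := by rw [h1]; exact mem_univ t
  exact h2

/-- a function which agrees near the real line with a periodic one is periodic -/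
theorem perAn_of {Ω : Set (ℂ × ℂ)} (hΩ : H456.Fct.Dom Ω) {G g : ℂ × ℂ → ℂ}
    (hG : AnalyticOnNhd ℂ G Ω) (hGg : ∀ t : ℝ, ∀ᶠ u in 𝓝 ((t : ℂ), (0 : ℂ)), G u = g u)
    (hg : ∀ᶠ u in 𝓝 ((0 : ℂ), (0 : ℂ)), g (u.1 + 1, u.2) = g u) : PerAn Ω G := by
  refine ⟨hG, ?_⟩
  have h0 : ((0 : ℂ), (0 : ℂ)) ∈ Ω := by
    have := hΩ.re 0
    simpa using this
  have hD : AnalyticOnNhd ℂ (fun u : ℂ × ℂ => G (u.1 + 1, u.2) - G u) Ω := by
    intro u hu
    have h1 : AnalyticAt ℂ (fun u : ℂ × ℂ => ((u.1 + 1, u.2) : ℂ × ℂ)) u :=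
      (analyticAt_fst.fun_add analyticAt_const).prod analyticAt_snd
    exact (AnalyticAt.fun_comp (g := G) (f := fun u : ℂ × ℂ => ((u.1 + 1, u.2) : ℂ × ℂ))
      (hG _ ((hΩ.per u).1 hu)) h1).fun_sub (hG u hu)
  have h1 : Tendsto (fun u : ℂ × ℂ => ((u.1 + 1, u.2) : ℂ × ℂ)) (𝓝 ((0 : ℂ), (0 : ℂ)))
      (𝓝 (((1 : ℝ) : ℂ), (0 : ℂ))) := by
    have h2 : Continuous fun u : ℂ × ℂ => ((u.1 + 1, u.2) : ℂ × ℂ) := by fun_prop
    have h3 := h2.tendsto ((0 : ℂ), (0 : ℂ))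
    simp only [zero_add] at h3
    rw [Complex.ofReal_one]
    exact h3
  have h3 : (fun u : ℂ × ℂ => G (u.1 + 1, u.2) - G u) =ᶠ[𝓝 ((0 : ℂ), (0 : ℂ))] 0 := by
    have h4 := hGg 0
    rw [Complex.ofReal_zero] at h4
    filter_upwards [h4, h1.eventually (hGg 1), hg] with u g1 g2 g3
    show G (u.1 + 1, u.2) - G u = 0
    rw [g1, g2, g3, sub_self]
  have h5 := hD.eqOn_zero_of_preconnected_of_eventuallyEq_zero hΩ.pc h0 h3
  intro u hu
  exact sub_eq_zero.1 (h5 hu)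

theorem algOn_of_perAn {Ω : Set (ℂ × ℂ)} (hΩ : H456.Fct.Dom Ω) {F f : ℂ × ℂ → ℂ} (hF : PerAn Ω F)
    (h : ∀ t : ℝ, ∀ᶠ u in 𝓝 ((t : ℂ), (0 : ℂ)), F u = f u) : AlgOn Ω f := by
  refine ⟨1, fun i u => if i = 0 then - F u else 1, ?_, ⟨1, le_rfl, (((0 : ℝ) : ℂ), 0), hΩ.re 0,
    by simp⟩, ?_⟩
  · intro i
    by_cases hi : i = 0
    · simp only [hi, if_true]
      exact ⟨hF.1.neg, fun u hu => by
        show - F (u.1 + 1, u.2) = - F u
        rw [hF.2 u hu]⟩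
    · simp only [hi, if_false]
      exact ⟨analyticOnNhd_const, fun u _ => rfl⟩
  · intro t
    filter_upwards [h t] with u hu
    rw [Finset.sum_range_succ, Finset.sum_range_succ, Finset.sum_range_zero]
    simp [hu]

section alg

variable {Ω U : Set (ℂ × ℂ)} [hΩ : H690.Dom Ω] [hU : H690.Dom U]

/-- the polynomial relation of an algebraic element, pointwise -/
theorem eval₂_PM_poly (h : U ⊆ Ω) {f : ℂ × ℂ → ℂ} (hf : AnalyticOnNhd ℂ f U)
    (p : Polynomial (PerR Ω)) (h0 : Polynomial.eval₂ (PM h) (toM f hf) p = 0) :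
    ∀ u ∈ U, ∑ i ∈ Finset.range (p.natDegree + 1), evP Ω (p.coeff i) u * f u ^ i = 0 := by
  intro u hu
  have h1 : Polynomial.eval₂ (PM h) (toM f hf) p
      = algebraMap (H365.An U) (Mf U) (Polynomial.eval₂ (resP h) (toAn f hf) p) := by
    rw [Polynomial.hom_eval₂]
    rfl
  rw [h1, map_eq_zero_iff _ (IsFractionRing.injective (H365.An U) (Mf U))] at h0
  have h2 : (evA (⟨u, hu⟩ : U) : H365.An U →+* ℂ) (Polynomial.eval₂ (resP h) (toAn f hf) p) = 0 := by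
    rw [h0, map_zero]
  rw [Polynomial.hom_eval₂, Polynomial.eval₂_eq_sum_range] at h2
  rw [← h2]
  refine Finset.sum_congr rfl fun i _ => ?_
  congr 1
  exact (evA_resP h (p.coeff i) ⟨u, hu⟩).symm

theorem algOn_of_isAlgebraic (hD : H456.Fct.Dom Ω) (h : U ⊆ Ω) {f : ℂ × ℂ → ℂ}
    (hf : AnalyticOnNhd ℂ f U) {t0 : ℝ} (ht0 : ((t0 : ℂ), (0 : ℂ)) ∈ U)
    (hfl : ∀ t : ℝ, AnalyticAt ℂ f ((t : ℂ), 0))
    (ha : ∃ p : Polynomial (PerR Ω), p ≠ 0 ∧ Polynomial.eval₂ (PM h) (toM f hf) p = 0) :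
    AlgOn Ω f := by
  obtain ⟨p, hp, hpx⟩ := ha
  have h1 := eval₂_PM_poly h hf p hpx
  refine ⟨p.natDegree, fun i => evP Ω (p.coeff i), ?_, ?_, ?_⟩
  · intro i
    exact ⟨evP_analytic _, fun u hu => evP_periodic _ hu ((hD.per u).1 hu)⟩
  · refine ⟨p.natDegree, le_rfl, ?_⟩
    by_contra hcon
    push Not at hcon
    apply hp
    rw [← Polynomial.leadingCoeff_eq_zero]
    refine evP_inj fun u hu => ?_
    rw [map_zero]
    exact hcon u hu
  · intro t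
    have hg : ∀ t : ℝ, AnalyticAt ℂ
        (fun u => ∑ i ∈ Finset.range (p.natDegree + 1), evP Ω (p.coeff i) u * f u ^ i)
        ((t : ℂ), 0) := by
      intro t
      refine Finset.analyticAt_fun_sum _ fun i _ => ?_
      exact (evP_analytic (p.coeff i) _ (hD.re t)).fun_mul ((hfl t).fun_pow i)
    refine line_prop hg (t0 := t0) ?_ t
    filter_upwards [hU.o.mem_nhds ht0] with u hu using h1 u hu

/-- a dependent function is algebraic -/
theorem isAlgebraic_of_not_ind (h : U ⊆ Ω) {f : ℂ × ℂ → ℂ} (hf : AnalyticOnNhd ℂ f U)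
    (hI : ¬ Ind (evP Ω) U (fun u (_ : Unit) => f u)) :
    letI : Algebra (PerR Ω) (Mf U) := (PM h).toAlgebra
    IsAlgebraic (PerR Ω) (toM f hf) := by
  letI : Algebra (PerR Ω) (Mf U) := (PM h).toAlgebra
  have h1 := (ind_algInd (σ := Unit) (f := fun u (_ : Unit) => f u) h (fun _ => hf)).not.1 hI
  rw [algebraicIndependent_unique_type_iff] at h1
  exact not_not.1 h1

end alg

end Vale.Agent.P097.H650
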