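import Vale.Agent.P097.H650.RR2
import Vale.Agent.P097.H835.RPack

/-!
# The base ring for the natural word (row F2b of FCT)
-/

set_option linter.unusedSectionVars false
set_option linter.style.haveILetI false

namespace Vale.Agent.P097.H650

open Complex Metric Filter Topology Set
open Vale.Agent.P097.H365 Vale.Agent.P097.H690
open Vale.Agent.P097.H202 (Lines)
open Vale.Agent.P097.H456.Fct (Let Word SWord Box NBox nat Ctx PerAn AlgOn Outer f1 nat_an
  sub_zero' real_mem ev_mem F2b)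
open Vale.Agent.P097.H531 (b2 wd)
open Vale.Agent.P097.H835.Mir (zc K0 ROut FlatOut flatOut_of f2b_of)

theorem exp_shift (x : ℂ) : exp (I * (x + 2 * Real.pi)) = exp (I * x) := by
  rw [mul_add, exp_add]
  have h1 : exp (I * (2 * Real.pi)) = 1 := by
    rw [show I * (2 * Real.pi) = 2 * Real.pi * I by ring]
    exact exp_two_pi_mul_I
  rw [h1, mul_one]

section

variable {κ Λ : ℝ} {H Φ : ℂ → ℂ} {r e : ℝ} {α p : ℂ → ℂ → ℂ} {J : ℂ → ℂ}

theorem nat_an_line {f : ℂ → ℂ → ℂ} (L : Lines κ Λ H Φ r e α p J)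
    (hf : TA.JD f (TA.WW 0 r e)) (j : ℕ) (t : ℝ) : AnalyticAt ℂ (nat f 1 j) ((t : ℂ), 0) :=
  nat_an hf (by rw [sub_zero' le_rfl]; exact real_mem L t 0)

theorem nat_α_shift (L : Lines κ Λ H Φ r e α p J) (j : ℕ) :
    ∀ᶠ u in 𝓝 ((0 : ℂ), (0 : ℂ)), nat α 1 j (u.1 + 1, u.2) = nat α 1 j u + 2 * Real.pi := by
  have h := ev_mem L (N := 1) le_rfl 0 j
  rw [Complex.ofReal_zero] at h
  filter_upwards [h] with u hu
  have h1 := L.αper _ _ hu
  have h2 : nat α 1 j (u.1 + 1, u.2) = α (u.1 + j * u.2 ^ 1 + 1) (u.2 ^ 1) := by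
    show α (u.1 + 1 + j * u.2 ^ 1) (u.2 ^ 1) = _
    rw [add_right_comm]
  rw [h2]
  exact h1

theorem nat_p_shift (L : Lines κ Λ H Φ r e α p J) (j : ℕ) :
    ∀ᶠ u in 𝓝 ((0 : ℂ), (0 : ℂ)), nat p 1 j (u.1 + 1, u.2) = nat p 1 j u := by
  have h := ev_mem L (N := 1) le_rfl 0 j
  rw [Complex.ofReal_zero] at h
  filter_upwards [h] with u hu
  have h1 := L.pper _ _ hu
  have h2 : nat p 1 j (u.1 + 1, u.2) = p (u.1 + j * u.2 ^ 1 + 1) (u.2 ^ 1) := by
    show p (u.1 + 1 + j * u.2 ^ 1) (u.2 ^ 1) = _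
    rw [add_right_comm]
  rw [h2]
  exact h1

/-- periodic extensions of one outer line -/
theorem outer_per {Ω : Set (ℂ × ℂ)} (hΩ : H456.Fct.Dom Ω) (L : Lines κ Λ H Φ r e α p J) {j : ℕ}
    {A Q : ℂ × ℂ → ℂ} (hA : AnalyticOnNhd ℂ A Ω) (hQ : AnalyticOnNhd ℂ Q Ω)
    (hAe : ∀ t : ℝ, ∀ᶠ u in 𝓝 ((t : ℂ), (0 : ℂ)), A u = nat α 1 j u)
    (hQe : ∀ t : ℝ, ∀ᶠ u in 𝓝 ((t : ℂ), (0 : ℂ)), Q u = nat p 1 j u) :
    PerAn Ω (fun u => exp (I * A u)) ∧ PerAn Ω Q := by
  constructor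
  · refine perAn_of hΩ (g := fun u => exp (I * nat α 1 j u)) ?_ ?_ ?_
    · intro u hu
      exact (analyticAt_const.fun_mul (hA u hu)).cexp
    · intro t
      filter_upwards [hAe t] with u hu
      rw [hu]
    · filter_upwards [nat_α_shift L j] with u hu
      rw [hu, exp_shift]
  · exact perAn_of hΩ hQ hQe (nat_p_shift L j)

end

theorem rout : ROut := by
  intro κ Λ H Φ r e α p J T n Ω a0 q0 an qn hΩ hO hne
  have L := T.ln
  have hαl : ∀ (j : ℕ) (t : ℝ), AnalyticAt ℂ (nat α 1 j) ((t : ℂ), 0) := nat_an_line L L.jα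
  have hpl : ∀ (j : ℕ) (t : ℝ), AnalyticAt ℂ (nat p 1 j) ((t : ℂ), 0) := nat_an_line L L.jp
  obtain ⟨pe0, pq0⟩ := outer_per hΩ L hO.ha0 hO.hq0
    (fun t => (hO.eq t).mono fun u hu => hu.1) (fun t => (hO.eq t).mono fun u hu => hu.2.1)
  obtain ⟨pen, pqn⟩ := outer_per hΩ L hO.han hO.hqn
    (fun t => (hO.eq t).mono fun u hu => hu.2.2.1) (fun t => (hO.eq t).mono fun u hu => hu.2.2.2)
  have hn : 0 < n := by
    by_contra h0
    obtain rfl : n = 0 := by omega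
    apply hne
    intro j hj
    obtain rfl : j = 0 := by omega
    refine ⟨algOn_of_perAn hΩ pe0 fun t => ?_, algOn_of_perAn hΩ pq0 fun t => ?_⟩
    · filter_upwards [hO.eq t] with u hu
      rw [hu.1]
    · filter_upwards [hO.eq t] with u hu
      exact hu.2.1
  obtain ⟨r1, hr1, hnb⟩ := f1 T 1 n le_rfl 0
  have hev : ∀ᶠ u in 𝓝 ((((0 : ℝ) : ℂ)), (0 : ℂ)), u ∈ Ω ∧ (a0 u = nat α 1 0 u ∧ q0 u = nat p 1 0 u ∧
      an u = nat α 1 n u ∧ qn u = nat p 1 n u) :=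
    (show ∀ᶠ u in 𝓝 ((((0 : ℝ) : ℂ)), (0 : ℂ)), u ∈ Ω from hΩ.op.mem_nhds (hΩ.re 0)).and (hO.eq 0)
  obtain ⟨ρ, hρ, hb⟩ := Metric.eventually_nhds_iff_ball.1 hev
  set r0 : ℝ := min r1 ρ with hr0
  have nb : NBox H r e α p 1 n (0 : ℝ) r0 := hnb r0 (lt_min hr1 hρ) (min_le_left _ _)
  have hbox : ∀ u ∈ Box ((0 : ℝ) : ℂ) r0, u ∈ Ω ∧ (a0 u = nat α 1 0 u ∧ q0 u = nat p 1 0 u ∧
      an u = nat α 1 n u ∧ qn u = nat p 1 n u) := by
    intro u hu
    refine hb u (ball_subset_ball (min_le_right r1 ρ) ?_)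
    rw [← ball_prod_same]
    exact hu
  have hsub : Box ((0 : ℝ) : ℂ) r0 ⊆ Ω := fun u hu => (hbox u hu).1
  haveI dΩ : H690.Dom Ω := ⟨hΩ.op, hΩ.pc, ⟨_, hΩ.re 0⟩⟩
  haveI dU : H690.Dom (Box ((0 : ℝ) : ℂ) r0) := H690.Dom.Box _ nb.pos
  have hper : ∀ u : ℂ × ℂ, u ∈ Ω → (u.1 + 1, u.2) ∈ Ω := fun u hu => (hΩ.per u).1 hu
  have W := nb.sw.toWord
  -- the outer data in the ring
  have aen : ∀ {A : ℂ × ℂ → ℂ}, PerAn Ω (fun u => exp (I * A u)) →
      AnalyticOnNhd ℂ (en A) Ω ∧ ∀ u ∈ Ω, en A (u.1 + 1, u.2) = en A u := by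
    intro A hA
    refine ⟨fun u hu => analyticAt_const.fun_mul (hA.1 u hu), fun u hu => ?_⟩
    have := hA.2 u hu
    simp only at this
    rw [en, en, this]
  have amo : ∀ {A Q : ℂ × ℂ → ℂ}, PerAn Ω (fun u => exp (I * A u)) → PerAn Ω Q →
      AnalyticOnNhd ℂ (mo A Q) Ω ∧ ∀ u ∈ Ω, mo A Q (u.1 + 1, u.2) = mo A Q u := by
    intro A Q hA hQ
    refine ⟨fun u hu => (analyticAt_const.fun_mul (hQ.1 u hu)).fun_mul (hA.1 u hu), fun u hu => ?_⟩
    have h1 := hA.2 u hu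
    have h2 := hQ.2 u hu
    simp only at h1
    rw [mo, mo, h1, h2]
  set c0 : PerR Ω := toP (en a0) (aen pe0).1 (aen pe0).2 with hc0
  set c1 : PerR Ω := toP (mo a0 q0) (amo pe0 pq0).1 (amo pe0 pq0).2 with hc1
  set c2 : PerR Ω := toP (en an) (aen pen).1 (aen pen).2 with hc2
  set c3 : PerR Ω := toP (mo an qn) (amo pen pqn).1 (amo pen pqn).2 with hc3
  have hcc : ∀ u ∈ Box ((0 : ℝ) : ℂ) r0, evP Ω c0 u = en (nat α 1 0) u ∧
      evP Ω c1 u = mo (nat α 1 0) (nat p 1 0) u ∧ evP Ω c2 u = en (nat α 1 n) u ∧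
      evP Ω c3 u = mo (nat α 1 n) (nat p 1 n) u := by
    intro u hu
    obtain ⟨g0, g1, g2, g3, g4⟩ := hbox u hu
    rw [evP_toP _ _ g0, evP_toP _ _ g0, evP_toP _ _ g0, evP_toP _ _ g0, en, en, mo, mo, en, en, mo,
      mo, g1, g2, g3, g4]
    exact ⟨rfl, rfl, rfl, rfl⟩
  have hz : ∀ k, AnalyticOnNhd ℂ (zc H α n k) (Box ((0 : ℝ) : ℂ) r0) := by
    rintro (j | j | j)
    · exact word_vp W j.2
    · exact word_vq W j.2
    · exact word_en W (Nat.lt_succ_iff.1 j.2)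
  obtain ⟨Lf, hL1, hL2, hL3, N, hN⟩ := chain_bound hper hsub hn
    (sword_isChain nb.sw (0, 1) (1, 0))
    ⟨c0, by
      rw [PM_toM, Em_eq W (Nat.zero_le _)]
      exact toM_congr (fun u hu => (hcc u hu).1) _⟩
    ⟨c1, by
      rw [PM_toM, word_left W hn, Mm_eq W (Nat.zero_le _)]
      exact toM_congr (fun u hu => (hcc u hu).2.1) _⟩
    ⟨c2, by
      rw [PM_toM, Em_eq W le_rfl]
      exact toM_congr (fun u hu => (hcc u hu).2.2.1) _⟩
    ⟨c3, by
      have h1 := word_right W (j := n - 1) (by omega)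
      rw [Nat.sub_add_cancel hn] at h1
      rw [h1, PM_toM, Mm_eq W le_rfl]
      exact toM_congr (fun u hu => (hcc u hu).2.2.2) _⟩
    (fun j hj => sword_dq_ne nb.sw hj) (fun i hi j hj hij => nat_slope T nb hi hj hij)
  refine ⟨0, r0, hn, nb, PerR Ω, inferInstance, inferInstance, inferInstance, evP Ω,
    fun a c => dlP hper (b2 a) c, fun c => (evP_analytic c).mono hsub,
    fun a c u hu => evP_dlP hper (b2 a) c (hsub hu), ?_, ⟨c0, c1, c2, c3, hcc⟩, ⟨N, ?_⟩, ?_⟩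
  · intro c hc
    apply PM_inj hsub
    rw [map_zero, PM_toM, toM_eq_zero]
    exact hc
  · intro m f hI
    have hwd : ∀ k l, AnalyticOnNhd ℂ (wd b2 (zc H α n) k l) (Box ((0 : ℝ) : ℂ) r0) :=
      fun k l => H531.wd_analytic hz k l
    have hmem : ∀ k l, toM (wd b2 (zc H α n) k l) (hwd k l) ∈ Lf := by
      intro k l
      induction l with
      | nil =>
        rcases k with (j | j | j)
        · have h1 := (hL1 j j.2).1
          rw [Pm_eq W j.2] at h1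
          exact h1
        · have h1 := (hL1 j j.2).2.1
          rw [Qm_eq W j.2] at h1
          exact h1
        · have h1 : Em (Box ((0 : ℝ) : ℂ) r0) (nat α 1) j ∈ Lf := by
            rcases Nat.lt_or_ge j n with h2 | h2
            · exact (hL1 j h2).2.2.1
            · have h3 : (j : ℕ) = (n - 1) + 1 := by omega
              rw [h3]
              exact (hL1 (n - 1) (by omega)).2.2.2
          rw [Em_eq W (Nat.lt_succ_iff.1 j.2)] at h1
          exact h1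
      | cons a l ih =>
        have h1 : toM (wd b2 (zc H α n) k (a :: l)) (hwd k (a :: l))
            = dM (b2 a) (toM (wd b2 (zc H α n) k l) (hwd k l)) := by
          rw [dM_toM]
          rfl
        rw [h1]
        fin_cases a
        · exact (hL2 _ ih).2
        · exact (hL2 _ ih).1
    exact hN m (fun u i => wd b2 (zc H α n) (f i).1 (f i).2 u) (fun i => hwd _ _)
      (fun i => hmem _ _) hI
  · by_contra hcon
    push Not at hcon
    letI i1 : Algebra (PerR Ω) (Mf (Box ((0 : ℝ) : ℂ) r0)) := (PM hsub).toAlgebra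
    have i2 : FaithfulSMul (PerR Ω) (Mf (Box ((0 : ℝ) : ℂ) r0)) :=
      (faithfulSMul_iff_algebraMap_injective _ _).2 (PM_inj hsub)
    have hk : ∀ k, IsAlgebraic (PerR Ω) (toM (zc H α n k) (hz k)) := fun k =>
      isAlgebraic_of_not_ind hsub (hz k) (hcon k)
    have hP : ∀ j < n, IsAlgebraic (PerR Ω) (Pm (Box ((0 : ℝ) : ℂ) r0) (fun _ => H) (nat α 1) j) := by
      intro j hj
      rw [Pm_eq W hj]
      exact hk (Sum.inl ⟨j, hj⟩)
    have hQ : ∀ j < n, IsAlgebraic (PerR Ω) (Qm (Box ((0 : ℝ) : ℂ) r0) (fun _ => H) (nat α 1) j) := by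
      intro j hj
      rw [Qm_eq W hj]
      exact hk (Sum.inr (Sum.inl ⟨j, hj⟩))
    have hE : ∀ j ≤ n, IsAlgebraic (PerR Ω) (Em (Box ((0 : ℝ) : ℂ) r0) (nat α 1) j) := by
      intro j hj
      rw [Em_eq W hj]
      exact hk (Sum.inr (Sum.inr ⟨j, Nat.lt_succ_iff.2 hj⟩))
    have hM : ∀ j ≤ n, IsAlgebraic (PerR Ω)
        (Mm (Box ((0 : ℝ) : ℂ) r0) (nat α 1) (nat p 1) j) := by
      intro j hj
      rcases Nat.lt_or_ge j n with h2 | h2
      · rw [← word_left W h2]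
        exact (hP j h2).sub (((hE j hj).pow 2).mul (hQ j h2))
      · have h3 : j = (n - 1) + 1 := by omega
        rw [h3, ← word_right W (show n - 1 < n by omega)]
        exact (hP _ (by omega)).sub (((hE _ (by omega)).pow 2).mul (hQ _ (by omega)))
    have hconst : ∀ c : ℂ, IsAlgebraic (PerR Ω)
        (toM (U := Box ((0 : ℝ) : ℂ) r0) (fun _ => c) analyticOnNhd_const) := by
      intro c
      have h1 : PM hsub (toP (fun _ => c) analyticOnNhd_const fun _ _ => rfl)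
          = toM (U := Box ((0 : ℝ) : ℂ) r0) (fun _ => c) analyticOnNhd_const := by
        rw [PM_toM]
        exact toM_congr (fun u hu => evP_toP _ _ (hsub hu)) _
      rw [← h1]
      exact isAlgebraic_algebraMap (toP (fun _ => c) analyticOnNhd_const fun _ _ => rfl)
    have hea : ∀ j ≤ n, AnalyticOnNhd ℂ (fun u => exp (I * nat α 1 j u)) (Box ((0 : ℝ) : ℂ) r0) :=
      fun j hj u hu => (analyticAt_const.fun_mul (W.aA j hj u hu)).cexp
    have he1 : ∀ j (hj : j ≤ n), IsAlgebraic (PerR Ω) (toM _ (hea j hj)) := by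
      intro j hj
      have h1 : toM _ (hea j hj) = toM (U := Box ((0 : ℝ) : ℂ) r0) (fun _ => -I)
          analyticOnNhd_const * Em (Box ((0 : ℝ) : ℂ) r0) (nat α 1) j := by
        rw [Em_eq W hj, toM_mul, toM_inj]
        intro u hu
        show exp (I * nat α 1 j u) = -I * (I * exp (I * nat α 1 j u))
        have := I_mul_I
        linear_combination exp (I * nat α 1 j u) * this
      rw [h1]
      exact (hconst _).mul (hE j hj)
    have he2 : ∀ j (hj : j ≤ n), IsAlgebraic (PerR Ω) (toM (nat p 1 j) (W.qA j hj)) := by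
      intro j hj
      have h0 : toM _ (hea j hj) ≠ 0 := toM_ne_zero (x := (((0 : ℝ) : ℂ), 0))
        ⟨mem_ball_self nb.pos, mem_ball_self nb.pos⟩ (exp_ne_zero _)
      have h1 : toM (nat p 1 j) (W.qA j hj) = toM (U := Box ((0 : ℝ) : ℂ) r0) (fun _ => 1 / 2)
          analyticOnNhd_const * Mm (Box ((0 : ℝ) : ℂ) r0) (nat α 1) (nat p 1) j *
            (toM _ (hea j hj))⁻¹ := by
        rw [eq_mul_inv_iff_mul_eq₀ h0, Mm_eq W hj, toM_mul, toM_mul, toM_inj]
        intro u hu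
        show nat p 1 j u * exp (I * nat α 1 j u)
          = 1 / 2 * (2 * nat p 1 j u * exp (I * nat α 1 j u))
        ring
      rw [h1]
      exact ((hconst _).mul (hM j hj)).mul (he1 j hj).inv
    apply hne
    intro j hj
    have m0 : (((0 : ℝ) : ℂ), (0 : ℂ)) ∈ Box ((0 : ℝ) : ℂ) r0 :=
      ⟨mem_ball_self nb.pos, mem_ball_self nb.pos⟩
    refine ⟨algOn_of_isAlgebraic hΩ hsub (hea j hj) m0 (fun t => ?_) (he1 j hj),
      algOn_of_isAlgebraic hΩ hsub (W.qA j hj) m0 (hpl j) (he2 j hj)⟩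
    exact (analyticAt_const.fun_mul (hαl j t)).cexp

/-- row F2b -/
theorem f2b : F2b := f2b_of (flatOut_of rout)

end Vale.Agent.P097.H650
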