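import Vale.Agent.P097.H288.Div
import Vale.Agent.P097.H650.Patch

/-!
# Taylor expansion in the second variable as a ring homomorphism

`AnAt x₀` : the ring of functions analytic at `x₀`.
`Tay ι hι : AnAt (t₀, 0) →+* 𝓜⟦X⟧` : Taylor expansion in the second variable, coefficients mapped
by a ring homomorphism `ι : AnAt t₀ →+* 𝓜` which only depends on germs.
-/

set_option linter.unusedSectionVars false

namespace Vale.Agent.P097.H650

open Filter Topology PowerSeries Finset.HasAntidiagonal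

section basic

variable {E : Type*} [NormedAddCommGroup E] [NormedSpace ℂ E]

/-- functions analytic at `x₀` -/
def AnAt (x₀ : E) : Subring (E → ℂ) where
  carrier := {f | AnalyticAt ℂ f x₀}
  mul_mem' := fun {_ _} hf hg => AnalyticAt.mul hf hg
  one_mem' := analyticAt_const
  add_mem' := fun {_ _} hf hg => AnalyticAt.add hf hg
  zero_mem' := analyticAt_const
  neg_mem' := fun {_} hf => AnalyticAt.neg hf

theorem AnAt.an {x₀ : E} (f : AnAt x₀) : AnalyticAt ℂ f.1 x₀ := f.2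

/-- composition with an analytic map -/
def AnAt.pull {E' : Type*} [NormedAddCommGroup E'] [NormedSpace ℂ E'] (g : E' → E) {x' : E'}
    {x : E} (hg : AnalyticAt ℂ g x') (h : g x' = x) : AnAt x →+* AnAt x' where
  toFun f := ⟨fun y => f.1 (g y), AnalyticAt.fun_comp (g := f.1) (f := g) (by rw [h]; exact f.2) hg⟩
  map_one' := rfl
  map_mul' _ _ := rfl
  map_zero' := rfl
  map_add' _ _ := rfl

@[simp] theorem AnAt.pull_apply {E' : Type*} [NormedAddCommGroup E'] [NormedSpace ℂ E']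
    (g : E' → E) {x' : E'} {x : E} (hg : AnalyticAt ℂ g x') (h : g x' = x) (f : AnAt x) (y : E') :
    (AnAt.pull g hg h f).1 y = f.1 (g y) := rfl

/-- derivative in the second variable -/
noncomputable def D2 (F : E × ℂ → ℂ) (p : E × ℂ) : ℂ := deriv (fun s => F (p.1, s)) p.2

theorem D2_eq_fderiv {F : E × ℂ → ℂ} {p : E × ℂ} (hF : DifferentiableAt ℂ F p) :
    D2 F p = fderiv ℂ F p ((0 : E), (1 : ℂ)) := by
  have h1 : HasDerivAt (fun s : ℂ => (p.1, s)) ((0 : E), (1 : ℂ)) p.2 :=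
    (hasDerivAt_const p.2 p.1).prodMk (hasDerivAt_id p.2)
  have hF' : HasFDerivAt F (fderiv ℂ F p) ((fun s : ℂ => (p.1, s)) p.2) := hF.hasFDerivAt
  exact (hF'.comp_hasDerivAt p.2 h1).deriv

theorem analyticAt_D2 {F : E × ℂ → ℂ} {p : E × ℂ} (hF : AnalyticAt ℂ F p) :
    AnalyticAt ℂ (D2 F) p := by
  have h1 : AnalyticAt ℂ (fun q => fderiv ℂ F q ((0 : E), (1 : ℂ))) p :=
    ((ContinuousLinearMap.apply ℂ ℂ ((0 : E), (1 : ℂ))).analyticAt _).fun_comp hF.fderiv
  refine h1.congr ?_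
  filter_upwards [hF.eventually_analyticAt] with q' hq'
  exact (D2_eq_fderiv hq'.differentiableAt).symm

theorem D2_congr {F G : E × ℂ → ℂ} {p : E × ℂ} (h : F =ᶠ[𝓝 p] G) : D2 F =ᶠ[𝓝 p] D2 G := by
  filter_upwards [h.eventuallyEq_nhds] with q hq
  refine Filter.EventuallyEq.deriv_eq ?_
  have h1 : Tendsto (fun s : ℂ => (q.1, s)) (𝓝 q.2) (𝓝 q) :=
    (Continuous.tendsto (by fun_prop) q.2)
  exact h1.eventually hq

theorem iterate_D2 (F : E × ℂ → ℂ) (l : ℕ) (t : E) :
    (fun s => (D2^[l] F) (t, s)) = iteratedDeriv l (fun s => F (t, s)) := by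
  induction l with
  | zero => simp [iteratedDeriv_zero]
  | succ l ih =>
    rw [iteratedDeriv_succ, ← ih]
    simp only [Function.iterate_succ', Function.comp]
    rfl

theorem analyticAt_iterate_D2 {F : E × ℂ → ℂ} {p : E × ℂ} (hF : AnalyticAt ℂ F p) (l : ℕ) :
    AnalyticAt ℂ (D2^[l] F) p := by
  induction l with
  | zero => simpa using hF
  | succ l ih =>
    rw [Function.iterate_succ', Function.comp]
    exact analyticAt_D2 ih

/-- Taylor coefficient -/
noncomputable def tc (F : E × ℂ → ℂ) (l : ℕ) (t : E) : ℂ :=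
  iteratedDeriv l (fun s => F (t, s)) 0 / (l.factorial : ℂ)

theorem tc_eq (F : E × ℂ → ℂ) (l : ℕ) (t : E) : tc F l t = (D2^[l] F) (t, 0) / (l.factorial : ℂ) := by
  unfold tc
  rw [← iterate_D2]

theorem analyticAt_tc {F : E × ℂ → ℂ} {t₀ : E} (hF : AnalyticAt ℂ F (t₀, 0)) (l : ℕ) :
    AnalyticAt ℂ (tc F l) t₀ := by
  have h1 : AnalyticAt ℂ (fun t : E => (D2^[l] F) (t, 0)) t₀ :=
    AnalyticAt.fun_comp (g := D2^[l] F) (f := fun t : E => (t, (0 : ℂ)))
      (analyticAt_iterate_D2 hF l) (analyticAt_id.prod analyticAt_const)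
  have h2 : tc F l = fun t => (D2^[l] F) (t, 0) / (l.factorial : ℂ) := funext fun t => tc_eq F l t
  rw [h2]
  exact h1.fun_div analyticAt_const (by exact_mod_cast l.factorial_ne_zero)

theorem tc_zero (F : E × ℂ → ℂ) (t : E) : tc F 0 t = F (t, 0) := by
  simp [tc, iteratedDeriv_zero]

theorem tc_D2 (F : E × ℂ → ℂ) (l : ℕ) (t : E) : tc (D2 F) l t = tc F (l + 1) t * (l + 1) := by
  rw [tc_eq, tc_eq, Function.iterate_succ, Function.comp, Nat.factorial_succ]
  have h1 : ((l.factorial : ℕ) : ℂ) ≠ 0 := by exact_mod_cast l.factorial_ne_zero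
  have h2 : ((l : ℂ) + 1) ≠ 0 := by exact_mod_cast Nat.succ_ne_zero l
  push_cast
  field_simp

theorem tc_congr {F G : E × ℂ → ℂ} {t : E} (h : F =ᶠ[𝓝 (t, (0 : ℂ))] G) (l : ℕ) :
    tc F l =ᶠ[𝓝 t] tc G l := by
  have h1 : ∀ᶠ t' in 𝓝 t, ∀ᶠ s in 𝓝 (0 : ℂ), F (t', s) = G (t', s) := by
    have h2 : ∀ᶠ p in 𝓝 (t, (0 : ℂ)), F p = G p := h
    rw [nhds_prod_eq] at h2
    exact h2.curry
  filter_upwards [h1] with t' ht'
  unfold tc
  rw [Filter.EventuallyEq.iteratedDeriv_eq l ht']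

theorem slice_analytic {F : E × ℂ → ℂ} {t : E} {s : ℂ} (hF : AnalyticAt ℂ F (t, s)) :
    AnalyticAt ℂ (fun s => F (t, s)) s :=
  hF.fun_comp (f := fun s : ℂ => (t, s)) (AnalyticAt.prod analyticAt_const analyticAt_id)

theorem eventually_analytic_slice {F : E × ℂ → ℂ} {t : E} (hF : AnalyticAt ℂ F (t, 0)) :
    ∀ᶠ t' in 𝓝 t, AnalyticAt ℂ F (t', 0) := by
  have h1 : Tendsto (fun t' : E => (t', (0 : ℂ))) (𝓝 t) (𝓝 (t, 0)) :=
    Continuous.tendsto (by fun_prop) t
  exact h1.eventually hF.eventually_analyticAt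

theorem tc_add {F G : E × ℂ → ℂ} {t : E} (hF : AnalyticAt ℂ F (t, 0)) (hG : AnalyticAt ℂ G (t, 0))
    (l : ℕ) : tc (F + G) l t = tc F l t + tc G l t := by
  unfold tc
  have h1 : ContDiffAt ℂ l (fun s => F (t, s)) 0 := (slice_analytic hF).contDiffAt
  have h2 : ContDiffAt ℂ l (fun s => G (t, s)) 0 := (slice_analytic hG).contDiffAt
  have h3 := iteratedDeriv_fun_add h1 h2
  rw [← add_div, ← h3]
  rfl

theorem tc_mul {F G : E × ℂ → ℂ} {t : E} (hF : AnalyticAt ℂ F (t, 0)) (hG : AnalyticAt ℂ G (t, 0))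
    (l : ℕ) : tc (F * G) l t = ∑ ij ∈ antidiagonal l, tc F ij.1 t * tc G ij.2 t := by
  have h1 : ContDiffAt ℂ l (fun s => F (t, s)) 0 := (slice_analytic hF).contDiffAt
  have h2 : ContDiffAt ℂ l (fun s => G (t, s)) 0 := (slice_analytic hG).contDiffAt
  have h3 := iteratedDeriv_fun_mul h1 h2
  rw [Finset.Nat.sum_antidiagonal_eq_sum_range_succ (fun i j => tc F i t * tc G j t)]
  unfold tc
  have h4 : (fun s => (F * G) (t, s)) = fun s => F (t, s) * G (t, s) := rfl
  rw [h4, h3, Finset.sum_div]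
  refine Finset.sum_congr rfl fun i hi => ?_
  have hi' : i ≤ l := Nat.lt_succ_iff.1 (Finset.mem_range.1 hi)
  have h5 : ((i.factorial : ℕ) : ℂ) ≠ 0 := by exact_mod_cast i.factorial_ne_zero
  have h6 : (((l - i).factorial : ℕ) : ℂ) ≠ 0 := by exact_mod_cast (l - i).factorial_ne_zero
  have h7 : ((l.factorial : ℕ) : ℂ) ≠ 0 := by exact_mod_cast l.factorial_ne_zero
  have h8 : ((l.choose i : ℕ) : ℂ) * (i.factorial : ℂ) * ((l - i).factorial : ℂ)
      = (l.factorial : ℂ) := by exact_mod_cast Nat.choose_mul_factorial_mul_factorial hi'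
  rw [div_mul_div_comm, div_eq_div_iff h7 (mul_ne_zero h5 h6), ← h8]
  ring

theorem tc_fst (f : E → ℂ) (l : ℕ) (t : E) :
    tc (fun p : E × ℂ => f p.1) l t = if l = 0 then f t else 0 := by
  have h0 : tc (fun p : E × ℂ => f p.1) l t
      = iteratedDeriv l (fun _ : ℂ => f t) 0 / (l.factorial : ℂ) := rfl
  rw [h0, iteratedDeriv_const]
  rcases Nat.eq_zero_or_pos l with h | h
  · simp [h]
  · simp [h.ne']

theorem tc_snd (l : ℕ) (t : E) :
    tc (fun p : E × ℂ => p.2) l t = if l = 1 then 1 else 0 := by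
  unfold tc
  rw [iteratedDeriv_fun_id_zero]
  rcases eq_or_ne l 1 with h | h
  · simp [h]
  · simp [h]

end basic

section Tay

variable {E : Type*} [NormedAddCommGroup E] [NormedSpace ℂ E] {𝓜 : Type*} [CommRing 𝓜] {t₀ : E}
  {ι : AnAt t₀ →+* 𝓜}

theorem ι_congr (hι : ∀ f : AnAt t₀, f.1 =ᶠ[𝓝 t₀] 0 → ι f = 0) {f g : AnAt t₀}
    (h : f.1 =ᶠ[𝓝 t₀] g.1) : ι f = ι g := by
  rw [← sub_eq_zero, ← map_sub]
  refine hι _ ?_
  filter_upwards [h] with t ht
  show f.1 t - g.1 t = 0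
  rw [ht, sub_self]

/-- Taylor coefficient as an element of `AnAt t₀` -/
noncomputable def tcA (F : AnAt (t₀, (0 : ℂ))) (l : ℕ) : AnAt t₀ := ⟨tc F.1 l, analyticAt_tc F.2 l⟩

@[simp] theorem tcA_apply (F : AnAt (t₀, (0 : ℂ))) (l : ℕ) (t : E) : (tcA F l).1 t = tc F.1 l t := rfl

theorem AnAt.sum_apply {x₀ : E} {α : Type*} (s : Finset α) (f : α → AnAt x₀) (x : E) :
    (∑ i ∈ s, f i).1 x = ∑ i ∈ s, (f i).1 x := by
  have h1 : (∑ i ∈ s, f i).1 = ∑ i ∈ s, (f i).1 := by
    exact map_sum (AnAt x₀).subtype f s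
  rw [h1, Finset.sum_apply]

/-- **Taylor expansion.** -/
noncomputable def Tay (hι : ∀ f : AnAt t₀, f.1 =ᶠ[𝓝 t₀] 0 → ι f = 0) :
    AnAt (t₀, (0 : ℂ)) →+* 𝓜⟦X⟧ where
  toFun F := PowerSeries.mk fun l => ι (tcA F l)
  map_one' := by
    ext l
    rw [coeff_mk, coeff_one]
    split_ifs with h
    · rw [← map_one ι]
      congr 1
      subst h
      refine Subtype.ext (funext fun t => ?_)
      exact tc_zero _ _
    · refine hι _ (Eventually.of_forall fun t => ?_)
      have := tc_fst (fun _ : E => (1 : ℂ)) l t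
      rw [if_neg h] at this
      exact this
  map_mul' F G := by
    ext l
    rw [coeff_mk, coeff_mul]
    simp only [coeff_mk, ← map_mul, ← map_sum]
    refine ι_congr hι ?_
    filter_upwards [eventually_analytic_slice F.2, eventually_analytic_slice G.2] with t h1 h2
    rw [AnAt.sum_apply]
    exact tc_mul h1 h2 l
  map_zero' := by
    ext l
    rw [coeff_mk, map_zero]
    refine hι _ (Eventually.of_forall fun t => ?_)
    have := tc_fst (fun _ : E => (0 : ℂ)) l t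
    rw [ite_self] at this
    exact this
  map_add' F G := by
    ext l
    rw [coeff_mk, map_add, coeff_mk, coeff_mk, ← map_add]
    refine ι_congr hι ?_
    filter_upwards [eventually_analytic_slice F.2, eventually_analytic_slice G.2] with t h1 h2
    exact tc_add h1 h2 l

variable (hι : ∀ f : AnAt t₀, f.1 =ᶠ[𝓝 t₀] 0 → ι f = 0)

@[simp] theorem coeff_Tay (F : AnAt (t₀, (0 : ℂ))) (l : ℕ) :
    coeff l (Tay hι F) = ι (tcA F l) := by
  show coeff l (PowerSeries.mk fun l => ι (tcA F l)) = _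
  rw [coeff_mk]

theorem Tay_congr {F G : AnAt (t₀, (0 : ℂ))} (h : F.1 =ᶠ[𝓝 (t₀, (0 : ℂ))] G.1) :
    Tay hι F = Tay hι G := by
  ext l
  rw [coeff_Tay, coeff_Tay]
  exact ι_congr hι (tc_congr h l)

/-- functions of the first variable -/
noncomputable def liftFst (f : AnAt t₀) : AnAt (t₀, (0 : ℂ)) := AnAt.pull Prod.fst analyticAt_fst rfl f

/-- the second variable -/
noncomputable def sndA (t₀ : E) : AnAt (t₀, (0 : ℂ)) := ⟨fun p => p.2, analyticAt_snd⟩

@[simp] theorem liftFst_apply (f : AnAt t₀) (p : E × ℂ) : (liftFst f).1 p = f.1 p.1 := rfl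

@[simp] theorem sndA_apply (p : E × ℂ) : (sndA t₀).1 p = p.2 := rfl

@[simp] theorem Tay_liftFst (f : AnAt t₀) : Tay hι (liftFst f) = C (ι f) := by
  ext l
  rw [coeff_Tay, coeff_C]
  split_ifs with h
  · congr 1
    refine Subtype.ext (funext fun t => ?_)
    have := tc_fst f.1 l t
    rw [if_pos h] at this
    exact this
  · refine hι _ (Eventually.of_forall fun t => ?_)
    have := tc_fst f.1 l t
    rw [if_neg h] at this
    exact this

@[simp] theorem Tay_sndA : Tay hι (sndA t₀) = X := by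
  ext l
  rw [coeff_Tay, coeff_X]
  split_ifs with h
  · rw [← map_one ι]
    congr 1
    refine Subtype.ext (funext fun t => ?_)
    have := tc_snd (E := E) l t
    rw [if_pos h] at this
    exact this
  · refine hι _ (Eventually.of_forall fun t => ?_)
    have := tc_snd (E := E) l t
    rw [if_neg h] at this
    exact this

/-- **Division.** If the first `m` Taylor coefficients vanish, divide by `s ^ m`. -/
theorem exists_div_pow (hι' : ∀ f : AnAt t₀, ι f = 0 → f.1 =ᶠ[𝓝 t₀] 0) (m : ℕ)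
    (F : AnAt (t₀, (0 : ℂ))) (h : X ^ m ∣ Tay hι F) :
    ∃ Q : AnAt (t₀, (0 : ℂ)), F.1 =ᶠ[𝓝 (t₀, (0 : ℂ))] (sndA t₀ ^ m * Q).1 := by
  induction m with
  | zero => exact ⟨F, by rw [pow_zero, one_mul]⟩
  | succ m ih =>
    obtain ⟨Q, hQ⟩ := ih (dvd_trans (pow_dvd_pow _ (Nat.le_succ m)) h)
    have h1 : Tay hι F = X ^ m * Tay hι Q := by
      rw [Tay_congr hι hQ, map_mul, map_pow, Tay_sndA]
    have h2 : coeff 0 (Tay hι Q) = 0 := by
      have h3 : coeff m (Tay hι F) = coeff 0 (Tay hι Q) := by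
        rw [h1]
        have := coeff_X_pow_mul (Tay hι Q) m 0
        rwa [zero_add] at this
      rw [← h3]
      exact (X_pow_dvd_iff.1 h) m (Nat.lt_succ_self m)
    rw [coeff_Tay] at h2
    have h3 : ∀ᶠ t in 𝓝 t₀, Q.1 (t, 0) = 0 := by
      filter_upwards [hι' _ h2] with t ht
      have h4 : tc Q.1 0 t = 0 := ht
      rwa [tc_zero] at h4
    obtain ⟨Q', hQ', h4, _⟩ := H288.exists_div Q.2 h3
    refine ⟨⟨Q', hQ'⟩, ?_⟩
    filter_upwards [hQ, h4] with p h5 h6
    rw [h5]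
    show (sndA t₀ ^ m).1 p * Q.1 p = (sndA t₀ ^ (m + 1)).1 p * Q' p
    rw [h6, pow_succ]
    show (sndA t₀ ^ m).1 p * (p.2 * Q' p) = ((sndA t₀ ^ m).1 p * p.2) * Q' p
    ring

end Tay

end Vale.Agent.P097.H650
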