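import Vale.Agent.P097.H650.PatchFull

/-!
# Transfer of polynomial identities along polynomial differential systems

`F : U → ℂ^ι` and `G : V → ℂ^ι` satisfy the same polynomial differential system
`∂_e F_i = q e i (F)` with coefficients in a ring `R` of functions with derivations. If every
polynomial relation of `F` over `R` holds for `G` at one point `v0`, it holds on all of `V`.
-/

namespace Vale.Agent.P097.H650

open Filter Topology Polynomial

set_option linter.unusedSectionVars false

section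

variable {E : Type*} [NormedAddCommGroup E] [NormedSpace ℂ E]
  {ι : Type*} {R : Type*} [CommRing R]

/-- One-variable functions all of whose derivatives vanish at a point vanish near it. -/
theorem eventually_zero_of_iterated {f : ℕ → ℂ → ℂ} {z0 : ℂ} (hf : AnalyticAt ℂ (f 0) z0)
    (hd : ∀ n, ∀ᶠ z in 𝓝 z0, HasDerivAt (f n) (f (n + 1) z) z) (h0 : ∀ n, f n z0 = 0) :
    ∀ᶠ z in 𝓝 z0, f 0 z = 0 := by
  have h1 : ∀ n, iteratedDeriv n (f 0) =ᶠ[𝓝 z0] f n := by
    intro n
    induction n with
    | zero => simp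
    | succ n ih =>
      rw [iteratedDeriv_succ]
      have h2 := ih.deriv
      filter_upwards [h2, hd n] with z hz1 hz2
      rw [hz1]; exact hz2.deriv
  rw [← analyticOrderAt_eq_top]
  by_contra htop
  obtain ⟨n, hn⟩ := ENat.ne_top_iff_exists.1 htop
  have h2 : ((n + 1 : ℕ) : ℕ∞) ≤ analyticOrderAt (f 0) z0 :=
    (natCast_le_analyticOrderAt_iff_iteratedDeriv_eq_zero hf).2
      fun i _ => (h1 i).self_of_nhds.trans (h0 i)
  rw [← hn] at h2
  have : n + 1 ≤ n := by exact_mod_cast h2
  omega

variable {ev : R →+* (E → ℂ)}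

/-- `Y` solves the system `q` at `v` in direction `e`. -/
def SolAt (ev : R →+* (E → ℂ)) (q : E → ι → MvPolynomial ι R) (Y : E → ι → ℂ) (v e : E) : Prop :=
  ∀ i, DifferentiableAt ℂ (fun u => Y u i) v ∧
    fderiv ℂ (fun u => Y u i) v e = evM ev v (Y v) (q e i)

/-- The coefficient functions are differentiable on `N`, with derivatives in `R`. -/
def CoefDiff (ev : R →+* (E → ℂ)) (N : Set E) : Prop :=
  ∀ c e, ∃ c', ∀ v ∈ N, DifferentiableAt ℂ (ev c) v ∧ fderiv ℂ (ev c) v e = ev c' v

/-- Total derivative of a polynomial along the system. -/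
theorem exists_Ld {N : Set E} (hev : CoefDiff ev N) (q : E → ι → MvPolynomial ι R)
    (Q : MvPolynomial ι R) (e : E) :
    ∃ Q' : MvPolynomial ι R, ∀ (Y : E → ι → ℂ), ∀ v ∈ N, SolAt ev q Y v e →
      DifferentiableAt ℂ (fun u => evM ev u (Y u) Q) v ∧
        fderiv ℂ (fun u => evM ev u (Y u) Q) v e = evM ev v (Y v) Q' := by
  induction Q using MvPolynomial.induction_on with
  | C c =>
    obtain ⟨c', hc'⟩ := hev c e
    refine ⟨MvPolynomial.C c', fun Y v hv _ => ?_⟩
    have h1 : (fun u => evM ev u (Y u) (MvPolynomial.C c)) = ev c := by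
      funext u; simp
    rw [h1]
    simpa using hc' v hv
  | add p p' hp hp' =>
    obtain ⟨a, ha⟩ := hp
    obtain ⟨b, hb⟩ := hp'
    refine ⟨a + b, fun Y v hv hY => ?_⟩
    have h1 := ha Y v hv hY
    have h2 := hb Y v hv hY
    have h3 : (fun u => evM ev u (Y u) (p + p'))
        = (fun u => evM ev u (Y u) p) + fun u => evM ev u (Y u) p' := by
      funext u; simp
    rw [h3]
    refine ⟨h1.1.add h2.1, ?_⟩
    rw [fderiv_add h1.1 h2.1]
    simp [h1.2, h2.2]
  | mul_X p i hp =>
    obtain ⟨a, ha⟩ := hp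
    refine ⟨a * MvPolynomial.X i + p * q e i, fun Y v hv hY => ?_⟩
    have h1 := ha Y v hv hY
    have h2 := hY i
    have h3 : (fun u => evM ev u (Y u) (p * MvPolynomial.X i))
        = (fun u => evM ev u (Y u) p) * fun u => Y u i := by
      funext u; simp
    rw [h3]
    refine ⟨h1.1.mul h2.1, ?_⟩
    rw [fderiv_mul h1.1 h2.1]
    simp only [_root_.add_apply, _root_.smul_apply, smul_eq_mul,
      h1.2, h2.2, map_add, map_mul, evM_X]
    ring

/-- **Transfer theorem.** -/
theorem transfer [Fintype ι] {N U V : Set E} (hev : CoefDiff ev N)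
    (heva : ∀ c, AnalyticOnNhd ℂ (ev c) V) (hUN : U ⊆ N) (hVN : V ⊆ N)
    (hUo : IsOpen U) (hVo : IsOpen V) (hVp : IsPreconnected V)
    (q : E → ι → MvPolynomial ι R) {F G : E → ι → ℂ} (hGa : AnalyticOnNhd ℂ G V)
    (hF : ∀ u ∈ U, ∀ e, SolAt ev q F u e) (hG : ∀ v ∈ V, ∀ e, SolAt ev q G v e)
    {v0 : E} (hv0 : v0 ∈ V)
    (h0 : ∀ Q : MvPolynomial ι R, (∀ u ∈ U, evM ev u (F u) Q = 0) → evM ev v0 (G v0) Q = 0)
    (Q : MvPolynomial ι R) (hQ : ∀ u ∈ U, evM ev u (F u) Q = 0) :
    ∀ v ∈ V, evM ev v (G v) Q = 0 := by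
  have han : ∀ Q : MvPolynomial ι R, AnalyticOnNhd ℂ (fun u => evM ev u (G u) Q) V :=
    fun Q v hv => analyticAt_evM (a := fun u : E => u) (fun c => heva c v hv) analyticAt_id
      (hGa v hv) Q
  obtain ⟨r, hr, hball⟩ := Metric.isOpen_iff.1 hVo v0 hv0
  have hnear : ∀ v ∈ Metric.ball v0 r, evM ev v (G v) Q = 0 := by
    intro v hv
    set e := v - v0 with he
    -- the sequence of relations
    have hstep : ∀ Q : {Q : MvPolynomial ι R // ∀ u ∈ U, evM ev u (F u) Q = 0},
        ∃ Q' : {Q : MvPolynomial ι R // ∀ u ∈ U, evM ev u (F u) Q = 0},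
          ∀ (Y : E → ι → ℂ), ∀ v ∈ N, SolAt ev q Y v e →
            DifferentiableAt ℂ (fun u => evM ev u (Y u) Q.1) v ∧
            fderiv ℂ (fun u => evM ev u (Y u) Q.1) v e = evM ev v (Y v) Q'.1 := by
      rintro ⟨Q, hQ⟩
      obtain ⟨Q', hQ'⟩ := exists_Ld hev q Q e
      refine ⟨⟨Q', ?_⟩, hQ'⟩
      intro u hu
      have h1 := hQ' F u (hUN hu) (hF u hu e)
      rw [← h1.2]
      have h2 : (fun u => evM ev u (F u) Q) =ᶠ[𝓝 u] fun _ => (0 : ℂ) := by
        filter_upwards [hUo.mem_nhds hu] with w hw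
        exact hQ w hw
      rw [h2.fderiv_eq]
      simp
    choose next hnext using hstep
    let S : ℕ → {Q : MvPolynomial ι R // ∀ u ∈ U, evM ev u (F u) Q = 0} :=
      fun n => Nat.rec ⟨Q, hQ⟩ (fun _ Q => next Q) n
    have hS0 : (S 0).1 = Q := rfl
    have hSs : ∀ n, S (n + 1) = next (S n) := fun n => rfl
    let f : ℕ → ℂ → ℂ := fun n s => evM ev (v0 + s • e) (G (v0 + s • e)) (S n).1
    have hline : ∀ s : ℂ, HasDerivAt (fun s : ℂ => v0 + s • e) e s := by
      intro s
      have h1 : HasDerivAt (fun s : ℂ => s • e) ((1 : ℂ) • e) s := (hasDerivAt_id s).smul_const e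
      rw [one_smul] at h1
      exact h1.const_add v0
    have hlinec : Continuous fun s : ℂ => v0 + s • e :=
      continuous_iff_continuousAt.2 fun s => (hline s).continuousAt
    set W : Set ℂ := (fun s : ℂ => v0 + s • e) ⁻¹' Metric.ball v0 r with hW
    have hWo : IsOpen W := Metric.isOpen_ball.preimage hlinec
    have hWc : Convex ℝ W := by
      intro s hs t ht a b ha hb hab
      have hs' : ‖s • e‖ < r := by simpa [W, Metric.mem_ball, dist_eq_norm] using hs
      have ht' : ‖t • e‖ < r := by simpa [W, Metric.mem_ball, dist_eq_norm] using ht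
      show v0 + (a • s + b • t) • e ∈ Metric.ball v0 r
      have h1 : (a • s + b • t) • e = a • (s • e) + b • (t • e) := by
        rw [add_smul, smul_assoc, smul_assoc]
      rw [Metric.mem_ball, dist_eq_norm, add_sub_cancel_left, h1]
      calc ‖a • (s • e) + b • (t • e)‖ ≤ ‖a • (s • e)‖ + ‖b • (t • e)‖ := norm_add_le _ _
        _ = a * ‖s • e‖ + b * ‖t • e‖ := by
          rw [norm_smul a (s • e), norm_smul b (t • e), Real.norm_of_nonneg ha,
            Real.norm_of_nonneg hb]
        _ < r := by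
          rcases ha.eq_or_lt with ha0 | ha0
          · subst ha0
            have : b = 1 := by linarith
            subst this
            simpa using ht'
          · have h3 : a * ‖s • e‖ < a * r := mul_lt_mul_of_pos_left hs' ha0
            have h4 : b * ‖t • e‖ ≤ b * r := mul_le_mul_of_nonneg_left ht'.le hb
            have h5 : a * r + b * r = r := by rw [← add_mul, hab, one_mul]
            linarith
    have hfd : ∀ n, ∀ s ∈ W, HasDerivAt (f n) (f (n + 1) s) s := by
      intro n s hs
      have hsV : v0 + s • e ∈ V := hball hs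
      have h1 := hnext (S n) G (v0 + s • e) (hVN hsV) (hG _ hsV e)
      have h2 := h1.1.hasFDerivAt.comp_hasDerivAt s (hline s)
      have h3 : f (n + 1) s = fderiv ℂ (fun u => evM ev u (G u) (S n).1) (v0 + s • e) e := by
        rw [h1.2]
      rw [h3]
      exact h2
    have h0W : (0 : ℂ) ∈ W := by
      show v0 + (0 : ℂ) • e ∈ Metric.ball v0 r
      simpa using hr
    have h1W : (1 : ℂ) ∈ W := by
      show v0 + (1 : ℂ) • e ∈ Metric.ball v0 r
      rw [one_smul, he, add_sub_cancel]
      exact hv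
    have hfa : AnalyticOnNhd ℂ (f 0) W := by
      intro s hs
      have hd : DifferentiableOn ℂ (f 0) W := fun t ht =>
        (hfd 0 t ht).differentiableAt.differentiableWithinAt
      exact hd.analyticAt (hWo.mem_nhds hs)
    have hzero : ∀ᶠ s in 𝓝 (0 : ℂ), f 0 s = 0 := by
      apply eventually_zero_of_iterated (f := f) (hfa 0 h0W)
      · intro n
        filter_upwards [hWo.mem_nhds h0W] with s hs
        exact hfd n s hs
      · intro n
        show evM ev (v0 + (0 : ℂ) • e) (G (v0 + (0 : ℂ) • e)) (S n).1 = 0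
        rw [zero_smul, add_zero]
        exact h0 _ (S n).2
    have h2 := hfa.eqOn_zero_of_preconnected_of_eventuallyEq_zero hWc.isPreconnected h0W hzero h1W
    have h3 : f 0 1 = evM ev v (G v) Q := by
      show evM ev (v0 + (1 : ℂ) • e) (G (v0 + (1 : ℂ) • e)) (S 0).1 = _
      rw [one_smul, he, add_sub_cancel, hS0]
    rw [← h3]
    exact h2
  have hz : (fun u => evM ev u (G u) Q) =ᶠ[𝓝 v0] 0 := by
    filter_upwards [Metric.ball_mem_nhds v0 hr] with v hv
    exact hnear v hv
  exact fun v hv => (han Q).eqOn_zero_of_preconnected_of_eventuallyEq_zero hVp hv0 hz hv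

end

end Vale.Agent.P097.H650
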